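import Vale.Agent.P295.Defs

/-!
# P295: stable coordinates which are sums of simple polynomials in disjoint groups of variables
-/

open MvPolynomial

namespace Vale.Agent.P295

variable {σ : Type}

theorem aeval_congr_vars {τ : Type} {g h : σ → MvPolynomial τ ℂ} {p : MvPolynomial σ ℂ}
    (H : ∀ i ∈ p.vars, g i = h i) : aeval g p = aeval h p := by
  rw [aeval_def, aeval_def]
  exact eval₂Hom_congr' (f₁ := algebraMap ℂ (MvPolynomial τ ℂ)) rfl (fun i hi _ => H i hi) rfl

theorem eval_congr_vars {x y : σ → ℂ} {p : MvPolynomial σ ℂ} (H : ∀ i ∈ p.vars, x i = y i) :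
    eval x p = eval y p :=
  eval₂Hom_congr' (f₁ := RingHom.id ℂ) rfl (fun i hi _ => H i hi) rfl

theorem vars_pderiv (i : σ) (p : MvPolynomial σ ℂ) : (pderiv i p).vars ⊆ p.vars := by
  classical
  intro j hj
  rw [mem_vars_iff_mem_support] at hj ⊢
  obtain ⟨s, hs, hsj⟩ := hj
  refine ⟨s + Finsupp.single i 1, ?_, ?_⟩
  · rw [mem_support_iff] at hs ⊢
    rw [coeff_pderiv] at hs
    exact left_ne_zero_of_mul hs
  · rw [Finsupp.mem_support_iff] at hsj ⊢
    rw [Finsupp.add_apply]
    omega

theorem notMem_vars_of_pderiv {i : σ} {p : MvPolynomial σ ℂ} (h : pderiv i p = 0) :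
    i ∉ p.vars := by
  classical
  intro hi
  rw [mem_vars_iff_mem_support] at hi
  obtain ⟨s, hs, hsi⟩ := hi
  rw [mem_support_iff] at hs
  rw [Finsupp.mem_support_iff] at hsi
  have h1 : (s - Finsupp.single i 1) + Finsupp.single i 1 = s := by
    ext j
    rw [Finsupp.add_apply, Finsupp.tsub_apply]
    by_cases hj : i = j
    · subst hj
      rw [Finsupp.single_eq_same]
      omega
    · rw [Finsupp.single_eq_of_ne' hj]
      omega
  have h2 : coeff (s - Finsupp.single i 1) (pderiv i p) = 0 := by
    rw [h, coeff_zero]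
  rw [coeff_pderiv, h1] at h2
  rcases mul_eq_zero.1 h2 with h3 | h3
  · exact hs h3
  · have : ((((s - Finsupp.single i 1 : σ →₀ ℕ) i + 1 : ℕ)) : ℂ) = 0 := by
      push_cast
      exact h3
    rw [Nat.cast_eq_zero] at this
    omega

/-- a polynomial with constant nonzero derivative with respect to a variable is a coordinate -/
theorem isCoordinate_of_pderiv {f : MvPolynomial σ ℂ} {i : σ} {c : ℂ} (hc : c ≠ 0)
    (h : pderiv i f = C c) : IsCoordinate f := by
  classical
  obtain ⟨g, hg⟩ : ∃ g, g = f - C c * X i := ⟨_, rfl⟩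
  have hgi : i ∉ g.vars := by
    apply notMem_vars_of_pderiv
    rw [hg, map_sub, pderiv_C_mul, pderiv_X_self, h, mul_one, sub_self]
  have hfg : f = C c * X i + g := by rw [hg]; ring
  have key : ∀ q : MvPolynomial σ ℂ, aeval (Function.update X i q) g = g := by
    intro q
    rw [aeval_congr_vars (h := X) (fun j hj => ?_), aeval_X_left_apply]
    rw [Function.update_of_ne]
    rintro rfl
    exact hgi hj
  let a : MvPolynomial σ ℂ →ₐ[ℂ] MvPolynomial σ ℂ :=
    aeval (Function.update X i (C c⁻¹ * (X i - g)))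
  let b : MvPolynomial σ ℂ →ₐ[ℂ] MvPolynomial σ ℂ :=
    aeval (Function.update X i (C c * X i + g))
  have hai : a (X i) = C c⁻¹ * (X i - g) := by
    simp only [a, aeval_X, Function.update_self]
  have hbi : b (X i) = C c * X i + g := by
    simp only [b, aeval_X, Function.update_self]
  have haj : ∀ j, j ≠ i → a (X j) = X j := fun j hj => by
    simp only [a, aeval_X, Function.update_of_ne hj]
  have hbj : ∀ j, j ≠ i → b (X j) = X j := fun j hj => by
    simp only [b, aeval_X, Function.update_of_ne hj]
  have hag : a g = g := key _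
  have hbg : b g = g := key _
  have haC : ∀ z : ℂ, a (C z) = C z := fun z => a.commutes z
  have hbC : ∀ z : ℂ, b (C z) = C z := fun z => b.commutes z
  have hcc : (C c * C c⁻¹ : MvPolynomial σ ℂ) = 1 := by
    rw [← C_mul, mul_inv_cancel₀ hc, C_1]
  have hab : a.comp b = AlgHom.id ℂ _ := by
    apply MvPolynomial.algHom_ext
    intro j
    rw [AlgHom.comp_apply, AlgHom.id_apply]
    by_cases hj : j = i
    · subst hj
      rw [hbi, map_add, map_mul, haC, hai, hag, ← mul_assoc, hcc]
      ring
    · rw [hbj j hj, haj j hj]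
  have hba : b.comp a = AlgHom.id ℂ _ := by
    apply MvPolynomial.algHom_ext
    intro j
    rw [AlgHom.comp_apply, AlgHom.id_apply]
    by_cases hj : j = i
    · subst hj
      rw [hai, map_mul, map_sub, hbC, hbi, hbg, add_sub_cancel_right, ← mul_assoc,
        mul_comm (C c⁻¹), hcc, one_mul]
    · rw [haj j hj, hbj j hj]
  refine ⟨AlgEquiv.ofAlgHom a b hab hba, i, ?_⟩
  show a f = X i
  rw [hfg, map_add, map_mul, haC, hai, hag, ← mul_assoc, hcc]
  ring

theorem IsCoordinate.of_equiv {f : MvPolynomial σ ℂ}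
    (e : MvPolynomial σ ℂ ≃ₐ[ℂ] MvPolynomial σ ℂ) (h : IsCoordinate (e f)) : IsCoordinate f := by
  obtain ⟨a, i, hi⟩ := h
  exact ⟨e.trans a, i, hi⟩

variable [Fintype σ]

/-- the chain rule -/
theorem pderiv_aeval (g : σ → MvPolynomial σ ℂ) (i : σ) (f : MvPolynomial σ ℂ) :
    pderiv i (aeval g f) = ∑ j, aeval g (pderiv j f) * pderiv i (g j) := by
  classical
  induction f using MvPolynomial.induction_on with
  | C a =>
    have h1 : aeval g (C a : MvPolynomial σ ℂ) = C a := (aeval g).commutes a
    rw [h1, pderiv_C]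
    symm
    apply Finset.sum_eq_zero
    intro j _
    rw [pderiv_C, map_zero, zero_mul]
  | add p q hp hq =>
    rw [map_add, map_add, hp, hq, ← Finset.sum_add_distrib]
    refine Finset.sum_congr rfl fun j _ => ?_
    rw [map_add, map_add, add_mul]
  | mul_X p n hp =>
    rw [map_mul, pderiv_mul, hp, aeval_X]
    have h1 : ∀ j, aeval g (pderiv j (p * X n)) * pderiv i (g j) =
        aeval g (pderiv j p) * pderiv i (g j) * g n +
          (if j = n then aeval g p * pderiv i (g n) else 0) := by
      intro j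
      rw [pderiv_mul, map_add, map_mul, map_mul, aeval_X, pderiv_X]
      by_cases hj : j = n
      · subst hj
        rw [Pi.single_eq_same, map_one, if_pos rfl]
        ring
      · rw [Pi.single_eq_of_ne (Ne.symm hj), map_zero, if_neg hj]
        ring
    rw [Finset.sum_congr rfl fun j _ => h1 j, Finset.sum_add_distrib, ← Finset.sum_mul,
      Finset.sum_ite_eq' Finset.univ n, if_pos (Finset.mem_univ n)]

/-- a polynomial with a constant nonzero directional derivative is a coordinate -/
theorem isCoordinate_of_direction {f : MvPolynomial σ ℂ} (v : σ → ℂ) {c : ℂ} (hc : c ≠ 0)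
    (h : ∑ j, C (v j) * pderiv j f = C c) : IsCoordinate f := by
  classical
  obtain ⟨i, hi⟩ : ∃ i, v i ≠ 0 := by
    by_contra hcon
    push Not at hcon
    have h1 : ∑ j, C (v j) * pderiv j f = 0 := by
      apply Finset.sum_eq_zero
      intro j _
      rw [hcon j, C_0, zero_mul]
    rw [h1] at h
    exact hc (C_injective σ ℂ (by rw [← h, C_0]))
  obtain ⟨u, hu⟩ : ∃ u : σ → ℂ, u = fun j => v j / v i := ⟨_, rfl⟩
  have hui : u i = 1 := by rw [hu]; exact div_self hi
  have hshift : ∀ t : σ → ℂ, t i = 0 → ∀ s : σ → ℂ, s i = 0 → s = -t →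
      (aeval (fun j => X j + C (t j) * X i) : MvPolynomial σ ℂ →ₐ[ℂ] MvPolynomial σ ℂ).comp
        (aeval (fun j => X j + C (s j) * X i)) = AlgHom.id ℂ _ := by
    intro t ht s hs hst
    apply MvPolynomial.algHom_ext
    intro j
    have h2 : (aeval (fun j => X j + C (t j) * X i) : MvPolynomial σ ℂ →ₐ[ℂ] MvPolynomial σ ℂ)
        (C (s j)) = C (s j) := AlgHom.commutes _ _
    rw [AlgHom.comp_apply, AlgHom.id_apply, aeval_X, map_add, map_mul, h2, aeval_X, aeval_X, ht,
      hst, Pi.neg_apply, C_neg, C_0]
    ring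
  obtain ⟨t, ht⟩ : ∃ t : σ → ℂ, t = fun j => if j = i then 0 else u j := ⟨_, rfl⟩
  have hti : t i = 0 := by rw [ht]; simp
  have htn : (-t) i = 0 := by rw [Pi.neg_apply, hti, neg_zero]
  let a : MvPolynomial σ ℂ →ₐ[ℂ] MvPolynomial σ ℂ := aeval (fun j => X j + C (t j) * X i)
  let b : MvPolynomial σ ℂ →ₐ[ℂ] MvPolynomial σ ℂ := aeval (fun j => X j + C ((-t) j) * X i)
  let e : MvPolynomial σ ℂ ≃ₐ[ℂ] MvPolynomial σ ℂ :=
    AlgEquiv.ofAlgHom a b (hshift t hti (-t) htn rfl)
      (hshift (-t) htn t hti (by rw [neg_neg]))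
  apply IsCoordinate.of_equiv e
  have hev : v i * (c / v i) = c := by field_simp
  apply isCoordinate_of_pderiv (i := i) (c := c / v i) (div_ne_zero hc hi)
  show pderiv i (aeval (fun j => X j + C (t j) * X i) f) = _
  rw [pderiv_aeval]
  have h3 : ∀ j, pderiv i (X j + C (t j) * X i : MvPolynomial σ ℂ) = C (u j) := by
    intro j
    rw [map_add, pderiv_C_mul, pderiv_X_self, mul_one]
    by_cases hj : j = i
    · subst hj
      rw [pderiv_X_self, hti, C_0, add_zero, hui, C_1]
    · rw [pderiv_X_of_ne hj, zero_add, ht]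
      simp only [if_neg hj]
  have h4 : a (∑ j, C (v j) * pderiv j f) = C c := by
    rw [h]
    exact a.commutes c
  rw [map_sum] at h4
  have h5 : ∀ j, (C (u j) : MvPolynomial σ ℂ) = C (v i)⁻¹ * C (v j) := by
    intro j
    rw [← C_mul, hu]
    congr 1
    field_simp
  calc ∑ j, aeval (fun j => X j + C (t j) * X i) (pderiv j f) *
        pderiv i (X j + C (t j) * X i : MvPolynomial σ ℂ)
      = ∑ j, C (v i)⁻¹ * a (C (v j) * pderiv j f) := by
        refine Finset.sum_congr rfl fun j _ => ?_
        have h6 : a (C (v j)) = C (v j) := a.commutes _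
        rw [h3, h5, map_mul, h6]
        show a (pderiv j f) * (C (v i)⁻¹ * C (v j)) = _
        ring
    _ = C (v i)⁻¹ * C c := by rw [← Finset.mul_sum, h4]
    _ = C (c / v i) := by rw [← C_mul, div_eq_inv_mul]

/-- a derivation in terms of the partial derivatives -/
theorem derivation_eq_sum (D : Derivation ℂ (MvPolynomial σ ℂ) (MvPolynomial σ ℂ))
    (F : MvPolynomial σ ℂ) : D F = ∑ j, D (X j) * pderiv j F := by
  classical
  induction F using MvPolynomial.induction_on with
  | C a =>
    rw [derivation_C]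
    symm
    apply Finset.sum_eq_zero
    intro j _
    rw [pderiv_C, mul_zero]
  | add p q hp hq =>
    rw [map_add, hp, hq, ← Finset.sum_add_distrib]
    refine Finset.sum_congr rfl fun j _ => ?_
    rw [map_add, mul_add]
  | mul_X p n hp =>
    rw [D.leibniz, hp]
    have h1 : ∀ j, D (X j) * pderiv j (p * X n) =
        X n * (D (X j) * pderiv j p) + (if j = n then p * D (X n) else 0) := by
      intro j
      rw [pderiv_mul, pderiv_X]
      by_cases hj : j = n
      · subst hj
        rw [Pi.single_eq_same, if_pos rfl]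
        ring
      · rw [Pi.single_eq_of_ne (Ne.symm hj), if_neg hj]
        ring
    rw [Finset.sum_congr rfl fun j _ => h1 j, Finset.sum_add_distrib, ← Finset.mul_sum,
      Finset.sum_ite_eq' Finset.univ n, if_pos (Finset.mem_univ n), smul_eq_mul, smul_eq_mul,
      add_comm]

/-- unimodularity of the gradient is invariant under automorphisms -/
theorem unimodular_of_equiv {F G : MvPolynomial σ ℂ}
    (e : MvPolynomial σ ℂ ≃ₐ[ℂ] MvPolynomial σ ℂ) (he : e F = G)
    (hG : ∃ c : σ → MvPolynomial σ ℂ, ∑ j, c j * pderiv j G = 1) :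
    ∃ c : σ → MvPolynomial σ ℂ, ∑ j, c j * pderiv j F = 1 := by
  classical
  obtain ⟨c, hc⟩ := hG
  let L : MvPolynomial σ ℂ →ₗ[ℂ] MvPolynomial σ ℂ :=
    { toFun := fun g => e.symm (∑ j, c j * pderiv j (e g))
      map_add' := fun a b => by
        rw [← map_add, ← Finset.sum_add_distrib]
        congr 1
        refine Finset.sum_congr rfl fun j _ => ?_
        rw [map_add, map_add, mul_add]
      map_smul' := fun r a => by
        rw [RingHom.id_apply, ← map_smul, Finset.smul_sum]
        congr 1
        refine Finset.sum_congr rfl fun j _ => ?_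
        rw [map_smul, Derivation.map_smul, mul_smul_comm] }
  have hL : ∀ g, L g = e.symm (∑ j, c j * pderiv j (e g)) := fun _ => rfl
  obtain ⟨D, hD0⟩ : ∃ D : Derivation ℂ (MvPolynomial σ ℂ) (MvPolynomial σ ℂ),
      ∀ g, D g = e.symm (∑ j, c j * pderiv j (e g)) :=
    ⟨Derivation.mk' L (fun a b => by
      rw [hL, hL, hL, smul_eq_mul, smul_eq_mul]
      have h1 : ∑ j, c j * pderiv j (e (a * b)) =
          e a * ∑ j, c j * pderiv j (e b) + e b * ∑ j, c j * pderiv j (e a) := by
        rw [Finset.mul_sum, Finset.mul_sum, ← Finset.sum_add_distrib]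
        refine Finset.sum_congr rfl fun j _ => ?_
        rw [map_mul, pderiv_mul]
        ring
      rw [h1, map_add, map_mul, map_mul, e.symm_apply_apply, e.symm_apply_apply]), fun _ => rfl⟩
  refine ⟨fun j => D (X j), ?_⟩
  have h1 : D F = 1 := by rw [hD0, he, hc, map_one]
  rw [← h1, derivation_eq_sum D F]

/-- the partial derivatives of a coordinate generate the unit ideal -/
theorem IsCoordinate.unimodular {F : MvPolynomial σ ℂ} (h : IsCoordinate F) :
    ∃ c : σ → MvPolynomial σ ℂ, ∑ j, c j * pderiv j F = 1 := by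
  classical
  obtain ⟨e, i, hi⟩ := h
  refine unimodular_of_equiv e hi ⟨Pi.single i 1, ?_⟩
  rw [Finset.sum_eq_single i]
  · rw [Pi.single_eq_same, one_mul, pderiv_X_self]
  · intro j _ hj
    rw [Pi.single_eq_of_ne hj, zero_mul]
  · intro hi
    exact absurd (Finset.mem_univ i) hi

/-- the partial derivatives of a stable coordinate generate the unit ideal -/
theorem IsStableCoordinate.unimodular {f : MvPolynomial σ ℂ} (h : IsStableCoordinate f) :
    ∃ c : σ → MvPolynomial σ ℂ, ∑ j, c j * pderiv j f = 1 := by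
  classical
  obtain ⟨m, -, hm⟩ := h
  obtain ⟨c, h2⟩ := hm.unimodular
  rw [Fintype.sum_sum_type] at h2
  have h3 : ∀ k : Fin m, pderiv (Sum.inr k : σ ⊕ Fin m) (rename Sum.inl f) = 0 := by
    intro k
    apply pderiv_eq_zero_of_notMem_vars
    intro hk
    have := vars_rename (Sum.inl : σ → σ ⊕ Fin m) f hk
    rw [Finset.mem_image] at this
    obtain ⟨j, -, hj⟩ := this
    exact Sum.inl_ne_inr hj
  have h4 : ∑ k : Fin m, c (Sum.inr k) * pderiv (Sum.inr k) (rename Sum.inl f) = 0 :=
    Finset.sum_eq_zero fun k _ => by rw [h3 k, mul_zero]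
  rw [h4, add_zero] at h2
  obtain ⟨φ, hφ⟩ : ∃ φ : MvPolynomial (σ ⊕ Fin m) ℂ →ₐ[ℂ] MvPolynomial σ ℂ,
      φ = aeval (Sum.elim X (fun _ => 0)) := ⟨_, rfl⟩
  have h5 : ∀ g : MvPolynomial σ ℂ, φ (rename Sum.inl g) = g := by
    intro g
    rw [hφ, aeval_rename]
    exact aeval_X_left_apply g
  refine ⟨fun j => φ (c (Sum.inl j)), ?_⟩
  have h6 := congrArg φ h2
  rw [map_sum, map_one] at h6
  rw [← h6]
  refine Finset.sum_congr rfl fun j _ => ?_
  rw [map_mul, pderiv_rename Sum.inl_injective, h5]

/-- either a common zero of the partial derivatives, or a constant nonzero directional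
derivative -/
def Good (F : MvPolynomial σ ℂ) : Prop :=
  (∃ x : σ → ℂ, ∀ j, eval x (pderiv j F) = 0) ∨
    ∃ (v : σ → ℂ) (c : ℂ), c ≠ 0 ∧ ∑ j, C (v j) * pderiv j F = C c

theorem good_of_affine {F : MvPolynomial σ ℂ} (h : F.totalDegree ≤ 2) : Good F := by
  classical
  by_cases h1 : (1 : MvPolynomial σ ℂ) ∈ Submodule.span ℂ (Set.range fun j => pderiv j F)
  · right
    obtain ⟨c, hc⟩ := (Submodule.mem_span_range_iff_exists_fun ℂ).1 h1
    refine ⟨c, 1, one_ne_zero, ?_⟩
    rw [C_1, ← hc]
    exact Finset.sum_congr rfl fun j _ => C_mul' ..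
  · left
    obtain ⟨l, hl1, hl⟩ := Submodule.exists_le_ker_of_notMem h1
    refine ⟨fun k => (l 1)⁻¹ * l (X k), fun j => ?_⟩
    have hz : l (pderiv j F) = 0 := hl (Submodule.subset_span ⟨j, rfl⟩)
    have key : l (pderiv j F) = l 1 * eval (fun k => (l 1)⁻¹ * l (X k)) (pderiv j F) := by
      conv_lhs => rw [← support_sum_monomial_coeff (pderiv j F)]
      conv_rhs => rw [← support_sum_monomial_coeff (pderiv j F)]
      rw [map_sum, map_sum, Finset.mul_sum]
      refine Finset.sum_congr rfl fun s hs => ?_
      obtain ⟨a, ha⟩ : ∃ a, a = coeff s (pderiv j F) := ⟨_, rfl⟩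
      rw [← ha]
      have hdeg : s.sum (fun _ n => n) ≤ 1 := by
        rw [mem_support_iff, coeff_pderiv] at hs
        have h2 : s + Finsupp.single j 1 ∈ F.support := by
          rw [mem_support_iff]
          exact left_ne_zero_of_mul hs
        have h3 := (le_totalDegree h2).trans h
        rw [Finsupp.sum_add_index' (fun _ => rfl) (fun _ _ _ => rfl),
          Finsupp.sum_single_index rfl] at h3
        omega
      by_cases hs0 : s = 0
      · subst hs0
        rw [eval_monomial, Finsupp.prod_zero_index, mul_one]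
        have : (monomial 0 a : MvPolynomial σ ℂ) = a • 1 := by
          rw [smul_eq_C_mul, mul_one]
          rfl
        rw [this, map_smul, smul_eq_mul, mul_comm]
      · obtain ⟨k, hk⟩ : ∃ k, s k ≠ 0 := by
          by_contra hcon
          push Not at hcon
          exact hs0 (Finsupp.ext hcon)
        have hsk : s = Finsupp.single k 1 := by
          have h4 : ∀ k', s k' ≤ 1 := fun k' => by
            by_cases hk' : k' ∈ s.support
            · exact (Finset.single_le_sum (f := fun i => s i) (fun _ _ => Nat.zero_le _)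
                hk').trans hdeg
            · rw [Finsupp.notMem_support_iff.1 hk']
              omega
          ext k'
          by_cases hkk : k = k'
          · subst hkk
            rw [Finsupp.single_eq_same]
            have := h4 k
            omega
          · rw [Finsupp.single_eq_of_ne' hkk]
            by_contra hne
            have h5 : ({k, k'} : Finset σ) ⊆ s.support := by
              intro z hz
              rw [Finset.mem_insert, Finset.mem_singleton] at hz
              rcases hz with rfl | rfl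
              · exact Finsupp.mem_support_iff.2 hk
              · exact Finsupp.mem_support_iff.2 hne
            have h6 : ∑ z ∈ ({k, k'} : Finset σ), s z ≤ s.sum (fun _ n => n) :=
              Finset.sum_le_sum_of_subset h5
            rw [Finset.sum_pair hkk] at h6
            omega
        subst hsk
        rw [eval_monomial, Finsupp.prod_single_index (by rw [pow_zero]), pow_one]
        have : (monomial (Finsupp.single k 1) a : MvPolynomial σ ℂ) = a • X k := by
          rw [smul_eq_C_mul, C_mul_X_eq_monomial]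
        rw [this, map_smul, smul_eq_mul]
        field_simp
    rw [hz] at key
    exact (mul_eq_zero.1 key.symm).resolve_left hl1

theorem good_of_weights {F : MvPolynomial σ ℂ} {w : σ → ℕ} {D : ℕ} {a : ℂ} (hw : ∀ i, 0 < w i)
    (h : IsWeightedHomogeneous w (F - C a) D) : Good F := by
  classical
  by_cases h0 : ∀ j, eval (0 : σ → ℂ) (pderiv j F) = 0
  · exact Or.inl ⟨0, h0⟩
  right
  push Not at h0
  obtain ⟨j, hj⟩ := h0
  have hcz : ∀ s : σ →₀ ℕ, coeff (s + Finsupp.single j 1) (F - C a) =
      coeff (s + Finsupp.single j 1) F := by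
    intro s
    rw [coeff_sub, coeff_C, if_neg, sub_zero]
    intro h1
    have := DFunLike.congr_fun h1 j
    rw [Finsupp.add_apply, Finsupp.single_eq_same, Finsupp.zero_apply] at this
    omega
  have h1 : coeff (0 : σ →₀ ℕ) (pderiv j F) ≠ 0 := by
    have : eval (0 : σ → ℂ) (pderiv j F) = coeff 0 (pderiv j F) := by
      rw [MvPolynomial.eval_zero, constantCoeff_eq]
    rwa [this] at hj
  have h2 : coeff (0 + Finsupp.single j 1) F ≠ 0 := by
    rw [coeff_pderiv] at h1
    exact left_ne_zero_of_mul h1
  rw [← hcz] at h2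
  have h3 := h h2
  rw [zero_add, Finsupp.weight_single, one_smul] at h3
  have h4 : pderiv j F = C (coeff (0 : σ →₀ ℕ) (pderiv j F)) := by
    ext s
    rw [coeff_C]
    by_cases hs : 0 = s
    · rw [if_pos hs, ← hs]
    · rw [if_neg hs]
      by_contra hne
      have h5 : coeff (s + Finsupp.single j 1) F ≠ 0 := by
        rw [coeff_pderiv] at hne
        exact left_ne_zero_of_mul hne
      rw [← hcz] at h5
      have h6 := h h5
      rw [map_add, Finsupp.weight_single, one_smul, h3] at h6
      have h7 : Finsupp.weight w s = 0 := by omega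
      apply hs
      symm
      ext k
      rw [Finsupp.zero_apply]
      by_contra hk
      have := Finsupp.le_weight_of_ne_zero' w hk
      have := hw k
      omega
  refine ⟨Pi.single j 1, coeff (0 : σ →₀ ℕ) (pderiv j F), h1, ?_⟩
  rw [Finset.sum_eq_single j]
  · rw [Pi.single_eq_same, C_1, one_mul]
    exact h4
  · intro k _ hk
    rw [Pi.single_eq_of_ne hk, C_0, zero_mul]
  · intro hj'
    exact absurd (Finset.mem_univ j) hj'

theorem good_of_univariate {F : MvPolynomial σ ℂ} {i : σ} (h : F.vars ⊆ {i}) : Good F := by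
  classical
  by_cases h0 : ∃ x : σ → ℂ, eval x (pderiv i F) = 0
  · obtain ⟨x, hx⟩ := h0
    left
    refine ⟨x, fun j => ?_⟩
    by_cases hj : j = i
    · rw [hj, hx]
    · rw [pderiv_eq_zero_of_notMem_vars, map_zero]
      intro hjF
      exact hj (Finset.mem_singleton.1 (h hjF))
  right
  push Not at h0
  obtain ⟨q, hq⟩ : ∃ q, q = pderiv i F := ⟨_, rfl⟩
  rw [← hq] at h0
  have hqv : q.vars ⊆ {i} := by
    rw [hq]
    exact (vars_pderiv i F).trans h
  obtain ⟨Q, hQ⟩ : ∃ Q : Polynomial ℂ, Q = aeval (fun _ : σ => (Polynomial.X : Polynomial ℂ)) q :=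
    ⟨_, rfl⟩
  have h1 : ∀ t : ℂ, Polynomial.eval t Q ≠ 0 := by
    intro t
    have : Polynomial.eval t Q = eval (fun _ => t) q := by
      rw [hQ]
      have h2 : (Polynomial.aeval t : Polynomial ℂ →ₐ[ℂ] ℂ).comp
          (aeval (fun _ : σ => (Polynomial.X : Polynomial ℂ))) = aeval (fun _ : σ => t) := by
        apply MvPolynomial.algHom_ext
        intro j
        simp
      have h3 := DFunLike.congr_fun h2 q
      rw [AlgHom.comp_apply] at h3
      rw [← Polynomial.coe_aeval_eq_eval]
      refine h3.trans ?_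
      rw [← coe_aeval_eq_eval]
      rfl
    rw [this]
    exact h0 _
  have h2 : Q = Polynomial.C (Q.coeff 0) := by
    apply Polynomial.eq_C_of_degree_eq_zero
    by_contra hdeg
    obtain ⟨t, ht⟩ := IsAlgClosed.exists_root Q hdeg
    exact h1 t ht
  have h3 : q = C (Q.coeff 0) := by
    have h4 : (Polynomial.aeval (X i : MvPolynomial σ ℂ)) Q = q := by
      rw [hQ]
      have h5 : (Polynomial.aeval (X i : MvPolynomial σ ℂ) : Polynomial ℂ →ₐ[ℂ] _).comp
          (aeval (fun _ : σ => (Polynomial.X : Polynomial ℂ))) =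
          aeval (fun _ : σ => (X i : MvPolynomial σ ℂ)) := by
        apply MvPolynomial.algHom_ext
        intro j
        simp
      have h6 := DFunLike.congr_fun h5 q
      rw [AlgHom.comp_apply] at h6
      rw [h6, aeval_congr_vars (h := X), aeval_X_left_apply]
      intro j hj
      rw [Finset.mem_singleton.1 (hqv hj)]
    rw [← h4, h2, Polynomial.aeval_C, Polynomial.coeff_C_zero]
    rfl
  have h4 : Q.coeff 0 ≠ 0 := by
    intro hz
    have := h1 0
    rw [h2, hz] at this
    simp at this
  refine ⟨Pi.single i 1, Q.coeff 0, h4, ?_⟩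
  rw [Finset.sum_eq_single i]
  · rw [Pi.single_eq_same, C_1, one_mul, ← hq]
    exact h3
  · intro k _ hk
    rw [Pi.single_eq_of_ne hk, C_0, zero_mul]
  · intro hj'
    exact absurd (Finset.mem_univ i) hj'

/-- sums in disjoint groups of variables -/
theorem isCoordinate_of_blocks {κ : Type} [Fintype κ] {f : MvPolynomial σ ℂ}
    (F : κ → MvPolynomial σ ℂ) (hf : f = ∑ k, F k)
    (hdisj : ∀ k l, k ≠ l → Disjoint (F k).vars (F l).vars) (hF : ∀ k, Good (F k))
    (hs : ∃ c : σ → MvPolynomial σ ℂ, ∑ j, c j * pderiv j f = 1) : IsCoordinate f := by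
  classical
  by_cases hall : ∀ k, ∃ x : σ → ℂ, ∀ j, eval x (pderiv j (F k)) = 0
  · exfalso
    choose x hx using hall
    let y : σ → ℂ := fun i => if hi : ∃ k, i ∈ (F k).vars then x hi.choose i else 0
    have hy : ∀ k, ∀ i ∈ (F k).vars, y i = x k i := by
      intro k i hi
      have hex : ∃ k, i ∈ (F k).vars := ⟨k, hi⟩
      have h1 : hex.choose = k := by
        by_contra hne
        exact Finset.disjoint_left.1 (hdisj _ _ hne) hex.choose_spec hi
      show (if hi : ∃ k, i ∈ (F k).vars then x hi.choose i else 0) = x k i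
      rw [dif_pos hex, h1]
    obtain ⟨c, hc⟩ := hs
    have h2 := congrArg (eval y) hc
    rw [map_sum, map_one] at h2
    have h3 : ∀ j, eval y (c j * pderiv j f) = 0 := by
      intro j
      rw [map_mul, hf, map_sum, map_sum]
      have h4 : ∑ k, eval y (pderiv j (F k)) = 0 := by
        apply Finset.sum_eq_zero
        intro k _
        rw [← hx k j]
        exact eval_congr_vars fun i hi => hy k i (vars_pderiv j (F k) hi)
      rw [h4, mul_zero]
    rw [Finset.sum_eq_zero fun j _ => h3 j] at h2
    exact zero_ne_one h2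
  · push Not at hall
    obtain ⟨k, hk⟩ := hall
    rcases hF k with ⟨x, hx⟩ | ⟨v, c, hc, hv⟩
    · obtain ⟨j, hj⟩ := hk x
      exact absurd (hx j) hj
    · apply isCoordinate_of_direction (fun j => if j ∈ (F k).vars then v j else 0) hc
      rw [← hv]
      refine Finset.sum_congr rfl fun j _ => ?_
      by_cases hj : j ∈ (F k).vars
      · rw [if_pos hj, hf, map_sum, Finset.sum_eq_single k]
        · intro l _ hl
          apply pderiv_eq_zero_of_notMem_vars
          intro hjl
          exact Finset.disjoint_left.1 (hdisj _ _ hl) hjl hj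
        · intro h1
          exact absurd (Finset.mem_univ k) h1
      · rw [if_neg hj, pderiv_eq_zero_of_notMem_vars hj, C_0, zero_mul, mul_zero]

end Vale.Agent.P295
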