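import Vale.Agent.P295.Core

/-!
# P295: blocks which are coordinates in their own variables
-/

open MvPolynomial

namespace Vale.Agent.P295

/-- `F` is, up to a constant, a coordinate by an automorphism which moves only its variables. -/
def Movable {σ : Type} (F : MvPolynomial σ ℂ) : Prop :=
  ∃ (e : MvPolynomial σ ℂ ≃ₐ[ℂ] MvPolynomial σ ℂ) (i : σ) (a : ℂ), e F = X i + C a ∧
    i ∈ F.vars ∧ ∀ j ∉ F.vars, e (X j) = X j

section Ext

variable {σ τ : Type} (ι : τ → σ)

open Classical in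
/-- the extension of an endomorphism by the identity on the other variables -/
noncomputable def extHom (a : MvPolynomial τ ℂ →ₐ[ℂ] MvPolynomial τ ℂ) :
    MvPolynomial σ ℂ →ₐ[ℂ] MvPolynomial σ ℂ :=
  aeval fun j => if h : ∃ t, ι t = j then rename ι (a (X h.choose)) else X j

theorem extHom_X (hι : Function.Injective ι) (a : MvPolynomial τ ℂ →ₐ[ℂ] MvPolynomial τ ℂ)
    (t : τ) : extHom ι a (X (ι t)) = rename ι (a (X t)) := by
  have h : ∃ t', ι t' = ι t := ⟨t, rfl⟩
  unfold extHom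
  rw [aeval_X, dif_pos h]
  rw [hι h.choose_spec]

theorem extHom_X' (a : MvPolynomial τ ℂ →ₐ[ℂ] MvPolynomial τ ℂ) {j : σ}
    (hj : ∀ t, ι t ≠ j) : extHom ι a (X j) = X j := by
  have h : ¬ ∃ t', ι t' = j := by
    push Not
    exact hj
  unfold extHom
  rw [aeval_X, dif_neg h]

theorem extHom_rename (hι : Function.Injective ι)
    (a : MvPolynomial τ ℂ →ₐ[ℂ] MvPolynomial τ ℂ) (p : MvPolynomial τ ℂ) :
    extHom ι a (rename ι p) = rename ι (a p) := by
  have h : (extHom ι a).comp (rename ι) = (rename ι).comp a := by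
    apply MvPolynomial.algHom_ext
    intro t
    rw [AlgHom.comp_apply, AlgHom.comp_apply, rename_X, extHom_X ι hι]
  exact DFunLike.congr_fun h p

theorem extHom_comp (hι : Function.Injective ι) (a b : MvPolynomial τ ℂ →ₐ[ℂ] MvPolynomial τ ℂ)
    (h : a.comp b = AlgHom.id ℂ _) : (extHom ι a).comp (extHom ι b) = AlgHom.id ℂ _ := by
  apply MvPolynomial.algHom_ext
  intro j
  rw [AlgHom.comp_apply, AlgHom.id_apply]
  by_cases hj : ∃ t, ι t = j
  · obtain ⟨t, rfl⟩ := hj
    rw [extHom_X ι hι, extHom_rename ι hι, ← AlgHom.comp_apply a b, h, AlgHom.id_apply, rename_X]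
  · push Not at hj
    rw [extHom_X' ι b hj, extHom_X' ι a hj]

/-- the extension of an automorphism by the identity on the other variables -/
noncomputable def extEquiv (hι : Function.Injective ι)
    (e : MvPolynomial τ ℂ ≃ₐ[ℂ] MvPolynomial τ ℂ) :
    MvPolynomial σ ℂ ≃ₐ[ℂ] MvPolynomial σ ℂ :=
  AlgEquiv.ofAlgHom (extHom ι (e : MvPolynomial τ ℂ →ₐ[ℂ] _))
    (extHom ι (e.symm : MvPolynomial τ ℂ →ₐ[ℂ] _))
    (extHom_comp ι hι _ _ (by ext1 t; exact e.apply_symm_apply _))
    (extHom_comp ι hι _ _ (by ext1 t; exact e.symm_apply_apply _))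

theorem extEquiv_rename (hι : Function.Injective ι)
    (e : MvPolynomial τ ℂ ≃ₐ[ℂ] MvPolynomial τ ℂ) (p : MvPolynomial τ ℂ) :
    extEquiv ι hι e (rename ι p) = rename ι (e p) :=
  extHom_rename ι hι _ p

theorem extEquiv_X' (hι : Function.Injective ι)
    (e : MvPolynomial τ ℂ ≃ₐ[ℂ] MvPolynomial τ ℂ) {j : σ} (hj : ∀ t, ι t ≠ j) :
    extEquiv ι hι e (X j) = X j :=
  extHom_X' ι _ hj

end Ext

/-- Nullstellensatz: polynomials without common zero generate the unit ideal. -/
theorem unimodular_of_no_zero {σ : Type} [Fintype σ] (q : σ → MvPolynomial σ ℂ)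
    (h : ∀ x : σ → ℂ, ∃ j, eval x (q j) ≠ 0) :
    ∃ c : σ → MvPolynomial σ ℂ, ∑ j, c j * q j = 1 := by
  classical
  have h1 : vanishingIdeal ℂ (zeroLocus ℂ (Ideal.span (Set.range q))) =
      (Ideal.span (Set.range q)).radical := vanishingIdeal_zeroLocus_eq_radical _
  have h2 : zeroLocus ℂ (Ideal.span (Set.range q)) = ∅ := by
    ext x
    simp only [Set.mem_empty_iff_false, iff_false]
    intro hx
    obtain ⟨j, hj⟩ := h x
    exact hj (hx (q j) (Ideal.subset_span ⟨j, rfl⟩))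
  rw [h2] at h1
  have h3 : (1 : MvPolynomial σ ℂ) ∈ (Ideal.span (Set.range q)).radical := by
    rw [← h1]
    intro x hx
    exact absurd hx (Set.notMem_empty x)
  obtain ⟨n, hn⟩ := h3
  rw [one_pow] at hn
  exact (Ideal.mem_span_range_iff_exists_fun).1 hn

/-- the general block lemma -/
theorem isCoordinate_of_blocks' {σ κ : Type} [Fintype σ] [Fintype κ] {f : MvPolynomial σ ℂ}
    (F : κ → MvPolynomial σ ℂ) (hf : f = ∑ k, F k)
    (hdisj : ∀ k l, k ≠ l → Disjoint (F k).vars (F l).vars)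
    (hF : ∀ k, Good (F k) ∨ ((∀ x : σ → ℂ, ∃ j, eval x (pderiv j (F k)) ≠ 0) → Movable (F k)))
    (hs : ∃ c : σ → MvPolynomial σ ℂ, ∑ j, c j * pderiv j f = 1) : IsCoordinate f := by
  classical
  by_cases hall : ∃ k, (∀ x : σ → ℂ, ∃ j, eval x (pderiv j (F k)) ≠ 0) ∧ ¬ Good (F k)
  · obtain ⟨k, hk, hg⟩ := hall
    obtain ⟨e, i, a, he, hi, hej⟩ := ((hF k).resolve_left hg) hk
    obtain ⟨h, hh⟩ : ∃ h, h = ∑ l ∈ Finset.univ.erase k, F l := ⟨_, rfl⟩
    have hfh : f = F k + h := by
      rw [hf, hh]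
      exact (Finset.add_sum_erase _ _ (Finset.mem_univ k)).symm
    have hhv : ∀ j ∈ h.vars, j ∉ (F k).vars := by
      intro j hj hjk
      rw [hh] at hj
      have h1 := vars_sum_subset (Finset.univ.erase k) F hj
      rw [Finset.mem_biUnion] at h1
      obtain ⟨l, hl, hjl⟩ := h1
      exact Finset.disjoint_left.1 (hdisj _ _ (Finset.ne_of_mem_erase hl)) hjl hjk
    have heh : e h = h := by
      have h1 : e h = aeval (fun j => e (X j)) h := by
        have h2 : (e : MvPolynomial σ ℂ →ₐ[ℂ] MvPolynomial σ ℂ) = aeval (fun j => e (X j)) := by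
          apply MvPolynomial.algHom_ext
          intro j
          rw [aeval_X]
          rfl
        exact DFunLike.congr_fun h2 h
      rw [h1, aeval_congr_vars (h := X), aeval_X_left_apply]
      intro j hj
      exact hej j (hhv j hj)
    apply IsCoordinate.of_equiv e
    rw [hfh, map_add, he, heh]
    apply isCoordinate_of_pderiv (i := i) (c := 1) one_ne_zero
    rw [map_add, map_add, pderiv_X_self, pderiv_C, add_zero,
      pderiv_eq_zero_of_notMem_vars (fun hih => hhv i hih hi), add_zero, C_1]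
  · push Not at hall
    refine isCoordinate_of_blocks F hf hdisj (fun k => ?_) hs
    by_cases hk : ∀ x : σ → ℂ, ∃ j, eval x (pderiv j (F k)) ≠ 0
    · exact hall k hk
    · push Not at hk
      exact Or.inl hk

/-- homogeneous blocks for weights which may vanish, from the case of a single block -/
theorem movable_of_weighted
    (W : ∀ (m : ℕ) (f : MvPolynomial (Fin m) ℂ),
      (∃ c : Fin m → MvPolynomial (Fin m) ℂ, ∑ j, c j * pderiv j f = 1) →
      ∀ (w : Fin m → ℕ) (d : ℕ), 0 < d → IsWeightedHomogeneous w f d →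
      ∃ (φ : MvPolynomial (Fin m) ℂ ≃ₐ[ℂ] MvPolynomial (Fin m) ℂ) (i : Fin m), φ f = X i)
    {σ : Type} [Fintype σ] {F : MvPolynomial σ ℂ} {w : σ → ℕ} {d : ℕ} {a : ℂ} (hd : 0 < d)
    (h : IsWeightedHomogeneous w (F - C a) d)
    (hz : ∀ x : σ → ℂ, ∃ j, eval x (pderiv j F) ≠ 0) : Movable F := by
  classical
  obtain ⟨m, ⟨eq⟩⟩ : ∃ m : ℕ, Nonempty (Fin m ≃ F.vars) :=
    ⟨_, ⟨(Fintype.equivFin F.vars).symm⟩⟩
  let ι : Fin m → σ := fun t => (eq t : σ)
  have hι : Function.Injective ι := fun s t hst => eq.injective (Subtype.ext hst)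
  have hr : ∀ j, j ∈ F.vars ↔ ∃ t, ι t = j := by
    intro j
    constructor
    · intro hj
      exact ⟨eq.symm ⟨j, hj⟩, by simp [ι]⟩
    · rintro ⟨t, rfl⟩
      exact (eq t).2
  obtain ⟨F0, hF0⟩ := exists_rename_eq_of_vars_subset_range F ι hι (fun j hj => (hr j).1 hj)
  have hder : ∀ t, pderiv (ι t) F = rename ι (pderiv t F0) := by
    intro t
    rw [← hF0, pderiv_rename hι]
  have hz0 : ∀ x0 : Fin m → ℂ, ∃ t, eval x0 (pderiv t F0) ≠ 0 := by
    intro x0
    obtain ⟨j, hj⟩ := hz (fun j => if h : ∃ t, ι t = j then x0 h.choose else 0)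
    by_cases hjv : j ∈ F.vars
    · obtain ⟨t, rfl⟩ := (hr j).1 hjv
      refine ⟨t, ?_⟩
      rw [hder, eval_rename] at hj
      have : (fun j => if h : ∃ t, ι t = j then x0 h.choose else 0) ∘ ι = x0 := by
        funext s
        have hs : ∃ t, ι t = ι s := ⟨s, rfl⟩
        show (if h : ∃ t, ι t = ι s then x0 h.choose else 0) = x0 s
        rw [dif_pos hs, hι hs.choose_spec]
      rwa [this] at hj
    · rw [pderiv_eq_zero_of_notMem_vars hjv, map_zero] at hj
      exact absurd rfl hj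
  have hu0 := unimodular_of_no_zero (fun t => pderiv t F0) hz0
  have hu1 : ∃ c : Fin m → MvPolynomial (Fin m) ℂ, ∑ j, c j * pderiv j (F0 - C a) = 1 := by
    obtain ⟨c, hc⟩ := hu0
    refine ⟨c, ?_⟩
    rw [← hc]
    refine Finset.sum_congr rfl fun t _ => ?_
    rw [map_sub, pderiv_C, sub_zero]
  have hw0 : IsWeightedHomogeneous (w ∘ ι) (F0 - C a) d := by
    intro s hs
    have h1 : coeff (Finsupp.mapDomain ι s) (F - C a) ≠ 0 := by
      have : F - C a = rename ι (F0 - C a) := by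
        rw [map_sub, rename_C, hF0]
      rw [this, coeff_rename_mapDomain ι hι]
      exact hs
    have h2 := h h1
    rw [← h2, Finsupp.weight_apply, Finsupp.weight_apply]
    exact (Finsupp.sum_mapDomain_index (h := fun (i : σ) (c : ℕ) => c • w i)
      (fun _ => zero_smul _ _) (fun _ _ _ => add_smul _ _ _)).symm
  obtain ⟨φ, i, hφ⟩ := W m (F0 - C a) hu1 (w ∘ ι) d hd hw0
  refine ⟨extEquiv ι hι φ, ι i, a, ?_, (hr _).2 ⟨i, rfl⟩, ?_⟩
  · have h1 : φ F0 = X i + C a := by
      rw [map_sub, sub_eq_iff_eq_add] at hφ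
      rw [hφ]
      congr 1
      exact φ.commutes a
    rw [← hF0, extEquiv_rename, h1, map_add, rename_X, rename_C]
  · intro j hj
    apply extEquiv_X'
    intro t ht
    exact hj ((hr j).2 ⟨t, ht⟩)

end Vale.Agent.P295
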