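import Mathlib

/-!
# P295: coordinates and stable coordinates
-/

open MvPolynomial

namespace Vale.Agent.P295

/-- A coordinate of a polynomial ring over `ℂ`: some automorphism sends it to a variable. -/
def IsCoordinate {σ : Type} (f : MvPolynomial σ ℂ) : Prop :=
  ∃ (e : MvPolynomial σ ℂ ≃ₐ[ℂ] MvPolynomial σ ℂ) (i : σ), e f = X i

/-- A stable coordinate: it becomes a coordinate after adding `m ≥ 1` new variables. -/
def IsStableCoordinate {σ : Type} (f : MvPolynomial σ ℂ) : Prop :=
  ∃ m : ℕ, 1 ≤ m ∧ IsCoordinate (rename (Sum.inl : σ → σ ⊕ Fin m) f)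

end Vale.Agent.P295
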