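import Vale.Agent.P295.QDefs

/-!
# P295: from local to global for unimodular vectors with a monic component
-/

namespace Vale.Agent.P295

open Polynomial

namespace Glob

variable {R : Type} [CommRing R]

/-- `shiftC c` as a ring homomorphism -/
noncomputable def sh (c : R) : R[X] →+* R[X][X] :=
  Polynomial.eval₂RingHom (C.comp C) (C X + C (C c) * X)

theorem sh_apply (c : R) (p : R[X]) : sh c p = shiftC c p := rfl

/-- `x ↦ x + c y` on `R[x][y]` -/
noncomputable def psi (c : R) : R[X][X] →+* R[X][X] := Polynomial.eval₂RingHom (sh c) X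

theorem psi_sh (c c' : R) (p : R[X]) : psi c (sh c' p) = sh (c + c') p := by
  have : (psi c).comp (sh c') = sh (c + c') := by
    apply Polynomial.ringHom_ext
    · intro a
      simp [psi, sh]
    · simp [psi, sh]
      ring
  exact DFunLike.congr_fun this p

theorem psi_C (c : R) (p : R[X]) : psi c (C p) = sh c p := by
  simp [psi]

/-- `y ↦ r y` on `R[x][y]` -/
noncomputable def mulY (r : R) : R[X][X] →+* R[X][X] :=
  Polynomial.eval₂RingHom C (C (C r) * X)

theorem mulY_sh (r c : R) (p : R[X]) : mulY r (sh c p) = sh (r * c) p := by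
  have : (mulY r).comp (sh c) = sh (r * c) := by
    apply Polynomial.ringHom_ext
    · intro a
      simp [mulY, sh]
    · simp [mulY, sh]
      ring
  exact DFunLike.congr_fun this p

theorem mulY_C (r : R) (p : R[X]) : mulY r (C p) = C p := by
  simp [mulY]

/-- `x ↦ 0`, `y ↦ x` -/
noncomputable def chi (R : Type) [CommRing R] : R[X][X] →+* R[X] :=
  Polynomial.eval₂RingHom (C.comp (Polynomial.evalRingHom 0)) X

theorem chi_sh (p : R[X]) : chi R (sh 1 p) = p := by
  have : (chi R).comp (sh 1) = RingHom.id _ := by
    apply Polynomial.ringHom_ext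
    · intro a
      simp [chi, sh]
    · simp [chi, sh]
  exact DFunLike.congr_fun this p

theorem chi_C (p : R[X]) : chi R (C p) = C (p.eval 0) := by
  simp [chi]

/-- the ideal of all `c` such that `f (x + c y) ~ f (x)` -/
noncomputable def J {n : ℕ} (f : Fin n → R[X]) : Ideal R where
  carrier := {c | Eqv (fun i => sh c (f i)) (fun i => C (f i))}
  zero_mem' := by
    have h0 : ∀ p : R[X], sh (0 : R) p = C p := by
      intro p
      have : sh (0 : R) = C := by
        apply Polynomial.ringHom_ext
        · intro a
          simp [sh]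
        · simp [sh]
      rw [this]
    simp only [Set.mem_ofPred_eq, h0]
    exact Eqv.refl _
  add_mem' := by
    intro a b ha hb
    have h2 := Eqv.map (psi a) hb
    simp only [psi_sh, psi_C] at h2
    exact h2.trans ha
  smul_mem' := by
    intro r c hc
    have h2 := Eqv.map (mulY r) hc
    simp only [mulY_sh, mulY_C] at h2
    exact h2

theorem glob [IsDomain R] {m : ℕ}
    (hH : ∀ (A : Type) [CommRing A] [IsLocalRing A] (f : Fin (m + 1) → A[X]), Unim f →
      (∃ i, (f i).Monic) → Eqv f (Pi.single 0 1))
    (hP : ∀ (f : Fin (m + 1) → R[X]) (p : Ideal R) [p.IsPrime],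
      Eqv (fun i => (f i).map (algebraMap R (Localization.AtPrime p)))
        (fun i => C (algebraMap R (Localization.AtPrime p) ((f i).eval 0))) →
      ∃ c : R, c ∉ p ∧ Eqv (fun i => shiftC c (f i)) (fun i => C (f i)))
    (f : Fin (m + 1) → R[X]) (hf : Unim f) (hm : ∃ i, (f i).Monic) :
    Eqv f (fun i => C ((f i).eval 0)) := by
  have htop : J f = ⊤ := by
    by_contra hne
    obtain ⟨p, hp, hle⟩ := Ideal.exists_le_maximal _ hne
    have := hp.isPrime
    set φ : R[X] →+* (Localization.AtPrime p)[X] :=
      Polynomial.mapRingHom (algebraMap R (Localization.AtPrime p)) with hφ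
    have h1 : Unim (fun i => φ (f i)) := hf.map φ
    have h2 : Eqv (fun i => φ (f i)) (Pi.single 0 1) :=
      hH _ _ h1 (by
        obtain ⟨i, hi⟩ := hm
        exact ⟨i, hi.map _⟩)
    have h3 := Eqv.map ((C : Localization.AtPrime p →+* (Localization.AtPrime p)[X]).comp
      (Polynomial.evalRingHom 0)) h2
    have h4 : (fun i => ((C : Localization.AtPrime p →+* (Localization.AtPrime p)[X]).comp
        (Polynomial.evalRingHom 0)) ((Pi.single 0 1 : Fin (m + 1) → (Localization.AtPrime p)[X]) i))
        = Pi.single 0 1 := by
      funext i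
      by_cases hi : i = 0
      · subst hi
        simp
      · simp [hi]
    rw [h4] at h3
    have h5 : Eqv (fun i => (f i).map (algebraMap R (Localization.AtPrime p)))
        (fun i => C (algebraMap R (Localization.AtPrime p) ((f i).eval 0))) := by
      have h6 := h2.trans h3.symm
      have h7 : (fun i => ((C : Localization.AtPrime p →+* (Localization.AtPrime p)[X]).comp
          (Polynomial.evalRingHom 0)) (φ (f i)))
          = (fun i => C (algebraMap R (Localization.AtPrime p) ((f i).eval 0))) := by
        funext i
        simp only [hφ, RingHom.comp_apply, Polynomial.coe_evalRingHom, Polynomial.coe_mapRingHom,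
          Polynomial.eval_zero_map]
      rw [h7] at h6
      exact h6
    obtain ⟨c, hc, hE⟩ := hP f p h5
    exact hc (hle hE)
  have h1 : (1 : R) ∈ J f := by rw [htop]; trivial
  have h2 := Eqv.map (chi R) h1
  simp only [chi_sh, chi_C] at h2
  exact h2

end Glob

end Vale.Agent.P295
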