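import Vale.Agent.P295.CDefs

/-!
# P295, row [G]: the gradient of a stable coordinate is unimodular
-/

namespace Vale.Agent.P295

/-- The chain rule for derivations. -/
theorem Grad.chain {ι A : Type} [Fintype ι] [CommRing A] [Algebra ℂ A] (D : Derivation ℂ A A)
    (g : ι → A) (f : MvPolynomial ι ℂ) :
    D (MvPolynomial.aeval g f) =
      ∑ j, MvPolynomial.aeval g (MvPolynomial.pderiv j f) * D (g j) := by
  classical
  induction f using MvPolynomial.induction_on with
  | C a =>
    have h1 : MvPolynomial.aeval g (MvPolynomial.C a) = algebraMap ℂ A a :=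
      MvPolynomial.aeval_C g a
    rw [h1, D.map_algebraMap]
    symm
    apply Finset.sum_eq_zero
    intro j _
    rw [MvPolynomial.pderiv_C, map_zero, zero_mul]
  | add p q hp hq =>
    simp only [map_add, hp, hq, add_mul, Finset.sum_add_distrib]
  | mul_X p i hp =>
    rw [map_mul, MvPolynomial.aeval_X, Derivation.leibniz, hp]
    have h2 : ∀ j, MvPolynomial.aeval g (MvPolynomial.pderiv j (p * MvPolynomial.X i)) * D (g j) =
        MvPolynomial.aeval g p * (if i = j then D (g j) else 0) +
          g i * (MvPolynomial.aeval g (MvPolynomial.pderiv j p) * D (g j)) := by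
      intro j
      rw [MvPolynomial.pderiv_mul, MvPolynomial.pderiv_X]
      by_cases hij : i = j
      · subst hij
        simp only [Pi.single_eq_same, if_true, map_add, map_mul, MvPolynomial.aeval_X, map_one]
        ring
      · rw [Pi.single_eq_of_ne hij, if_neg hij]
        simp only [map_add, map_mul, MvPolynomial.aeval_X, mul_zero, map_zero]
        ring
    rw [Finset.sum_congr rfl (fun j _ => h2 j), Finset.sum_add_distrib, ← Finset.mul_sum,
      ← Finset.mul_sum, Finset.sum_ite_eq]
    simp only [Finset.mem_univ, if_true, smul_eq_mul]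

/-- The gradient of a stable coordinate is unimodular. -/
theorem unim_pderiv {n : ℕ} (f : MvPolynomial (Fin n) ℂ) (hf : IsStableCoordinate f) :
    Unim (fun i => MvPolynomial.pderiv i f) := by
  obtain ⟨m, -, φ, i₀, hφ⟩ := hf
  have h1 : φ (MvPolynomial.rename Sum.inl f) =
      MvPolynomial.aeval (fun j => φ (MvPolynomial.X (Sum.inl j))) f := by
    have e : (φ.toAlgHom.comp (MvPolynomial.rename Sum.inl) :
        MvPolynomial (Fin n) ℂ →ₐ[ℂ] MvPolynomial (Fin n ⊕ Fin m) ℂ) =
        MvPolynomial.aeval (fun j => φ (MvPolynomial.X (Sum.inl j))) := by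
      ext j
      simp
    exact DFunLike.congr_fun e f
  have h2 := Grad.chain (MvPolynomial.pderiv i₀) (fun j : Fin n => φ (MvPolynomial.X (Sum.inl j))) f
  rw [← h1, hφ, MvPolynomial.pderiv_X_self] at h2
  have h3 : ∀ j, MvPolynomial.aeval (fun j : Fin n => φ (MvPolynomial.X (Sum.inl j)))
      (MvPolynomial.pderiv j f) = φ (MvPolynomial.rename Sum.inl (MvPolynomial.pderiv j f)) := by
    intro j
    have e : (φ.toAlgHom.comp (MvPolynomial.rename Sum.inl) :
        MvPolynomial (Fin n) ℂ →ₐ[ℂ] MvPolynomial (Fin n ⊕ Fin m) ℂ) =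
        MvPolynomial.aeval (fun j => φ (MvPolynomial.X (Sum.inl j))) := by
      ext j
      simp
    exact (DFunLike.congr_fun e _).symm
  let π : MvPolynomial (Fin n ⊕ Fin m) ℂ →ₐ[ℂ] MvPolynomial (Fin n) ℂ :=
    MvPolynomial.aeval (Sum.elim MvPolynomial.X (fun _ => 0))
  have hπ : ∀ p : MvPolynomial (Fin n) ℂ, π (MvPolynomial.rename Sum.inl p) = p := by
    intro p
    have e : (π.comp (MvPolynomial.rename Sum.inl) :
        MvPolynomial (Fin n) ℂ →ₐ[ℂ] MvPolynomial (Fin n) ℂ) = AlgHom.id ℂ _ := by
      ext j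
      simp [π]
    exact DFunLike.congr_fun e p
  refine ⟨fun j => π (φ.symm (MvPolynomial.pderiv i₀ (φ (MvPolynomial.X (Sum.inl j))))), ?_⟩
  have h4 := congrArg (fun z => π (φ.symm z)) h2
  simp only [map_one, map_sum, map_mul, h3, AlgEquiv.symm_apply_apply, hπ] at h4
  rw [h4]
  exact Finset.sum_congr rfl fun j _ => mul_comm _ _

end Vale.Agent.P295
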