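import Vale.Agent.P295.QDefs

/-!
# P295: Horrocks' theorem for unimodular vectors over `R[X]`, `R` a local ring
-/

namespace Vale.Agent.P295

open Polynomial

namespace Horrocks

section Elem

variable {S : Type} [CommRing S] {n : ℕ}

/-- adding multiples of one component to the others -/
theorem eqv_col (f : Fin n → S) (j : Fin n) (w : Fin n → S) (hw : w j = 0) :
    Eqv f (fun i => f i + w i * f j) := by
  have h0 : Matrix.vecMulVec w (Pi.single j 1) * Matrix.vecMulVec w (Pi.single j 1) = 0 := by
    rw [Matrix.vecMulVec_mul_vecMulVec]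
    simp [hw]
  refine ⟨1 + Matrix.vecMulVec w (Pi.single j 1), 1 - Matrix.vecMulVec w (Pi.single j 1), ?_, ?_,
    ?_⟩
  · rw [add_mul, mul_sub, mul_sub, h0]
    simp
  · rw [sub_mul, mul_add, mul_add, h0]
    simp
  · funext i
    rw [Matrix.add_mulVec, Matrix.one_mulVec, Pi.add_apply]
    congr 1
    simp [Matrix.mulVec, dotProduct, Matrix.vecMulVec_apply, Pi.single_apply]

/-- adding a combination of the other components to one component -/
theorem eqv_row (f : Fin n → S) (i : Fin n) (u : Fin n → S) (hu : u i = 0) :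
    Eqv f (Function.update f i (f i + ∑ k, u k * f k)) := by
  have h0 : Matrix.vecMulVec (Pi.single i 1) u * Matrix.vecMulVec (Pi.single i 1) u = 0 := by
    rw [Matrix.vecMulVec_mul_vecMulVec]
    simp [hu]
  refine ⟨1 + Matrix.vecMulVec (Pi.single i 1) u, 1 - Matrix.vecMulVec (Pi.single i 1) u, ?_, ?_,
    ?_⟩
  · rw [add_mul, mul_sub, mul_sub, h0]
    simp
  · rw [sub_mul, mul_add, mul_add, h0]
    simp
  · funext k
    rw [Matrix.add_mulVec, Matrix.one_mulVec, Pi.add_apply]
    by_cases h : k = i
    · subst h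
      simp [Matrix.mulVec, dotProduct, Matrix.vecMulVec_apply]
    · simp [Matrix.mulVec, dotProduct, Matrix.vecMulVec_apply, h]

/-- permuting the components -/
theorem eqv_perm (f : Fin n → S) (σ : Equiv.Perm (Fin n)) : Eqv f (f ∘ σ) := by
  refine ⟨(1 : Matrix (Fin n) (Fin n) S).submatrix σ id,
    (1 : Matrix (Fin n) (Fin n) S).submatrix id σ, ?_, ?_, ?_⟩
  · ext i j
    simp [Matrix.mul_apply, Matrix.submatrix_apply, Matrix.one_apply]
  · rw [Matrix.submatrix_mul_equiv, Matrix.one_mul]
    simp
  · funext i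
    simp [Matrix.mulVec, dotProduct, Matrix.submatrix_apply, Matrix.one_apply]

theorem eqv_one {m : ℕ} (f : Fin (m + 1) → S) (i : Fin (m + 1)) (h : f i = 1) :
    Eqv f (Pi.single 0 1) := by
  refine (eqv_perm f (Equiv.swap 0 i)).trans ?_
  set g := f ∘ Equiv.swap 0 i with hg
  have hg0 : g 0 = 1 := by simp [hg, h]
  have := eqv_col g 0 (fun k => if k = 0 then 0 else - g k) (by simp)
  refine (?_ : (fun k => g k + (if k = 0 then 0 else - g k) * g 0) = Pi.single 0 1) ▸ this
  funext k
  by_cases hk : k = 0
  · subst hk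
    simp [hg0]
  · simp [hk, hg0]

/-- two components -/
theorem eqv_two (f : Fin 2 → S) (hf : Unim f) : Eqv f (Pi.single 0 1) := by
  obtain ⟨u, hu⟩ := hf
  rw [Fin.sum_univ_two] at hu
  refine ⟨!![u 0, u 1; - f 1, f 0], !![f 0, - u 1; f 1, u 0], ?_, ?_, ?_⟩
  · ext i j
    fin_cases i <;> fin_cases j <;>
      simp [Matrix.mul_apply, Fin.sum_univ_two] <;> first | ring1 | linear_combination hu
  · ext i j
    fin_cases i <;> fin_cases j <;>
      simp [Matrix.mul_apply, Fin.sum_univ_two] <;> first | ring1 | linear_combination hu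
  · funext i
    fin_cases i
    · simp [Matrix.mulVec, dotProduct, Fin.sum_univ_two]
      linear_combination hu
    · simp [Matrix.mulVec, dotProduct, Fin.sum_univ_two]
      ring

end Elem

section Local

variable {R : Type} [CommRing R]

/-- An ideal containing a monic polynomial `f` of degree `d` and a polynomial `g` of smaller degree
with a unit coefficient contains a monic polynomial of degree `d - 1`. -/
theorem exists_monic [Nontrivial R] (I : Ideal R[X]) {d : ℕ} {f g : R[X]} (hf : f.Monic)
    (hd : f.natDegree = d + 1) (hfI : f ∈ I) (hgI : g ∈ I) (hg : g.degree < (d + 1 : ℕ)) {k : ℕ}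
    (hk : IsUnit (g.coeff k)) : ∃ h ∈ I, h.coeff d = 1 ∧ h.degree ≤ (d : ℕ) := by
  -- the ideal of the coefficients number `d`
  set L : Submodule R R := Submodule.map (Polynomial.lcoeff R d)
    ((I.restrictScalars R) ⊓ Polynomial.degreeLT R (d + 1)) with hL
  have hmem : ∀ c : R, c ∈ L ↔ ∃ q ∈ I, q.degree < (d + 1 : ℕ) ∧ q.coeff d = c := by
    intro c
    rw [hL, Submodule.mem_map]
    constructor
    · rintro ⟨q, hq, rfl⟩
      exact ⟨q, hq.1, Polynomial.mem_degreeLT.1 hq.2, rfl⟩
    · rintro ⟨q, h1, h2, rfl⟩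
      exact ⟨q, ⟨h1, Polynomial.mem_degreeLT.2 h2⟩, rfl⟩
  have key : ∀ j ≤ d, ∀ q ∈ I, q.degree < (d + 1 : ℕ) → q.coeff (d - j) ∈ L := by
    intro j
    induction j with
    | zero =>
      intro _ q hq h
      exact (hmem _).2 ⟨q, hq, h, rfl⟩
    | succ j ih =>
      intro hj q hq h
      set q' := X * q - C (q.coeff d) * f with hq'
      have h1 : q' ∈ I := I.sub_mem (I.mul_mem_left _ hq) (I.mul_mem_left _ hfI)
      have h2 : q'.degree < (d + 1 : ℕ) := by
        rw [Polynomial.degree_lt_iff_coeff_zero]
        intro e he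
        rw [hq', coeff_sub, coeff_C_mul]
        obtain ⟨e', rfl⟩ : ∃ e', e = e' + 1 := ⟨e - 1, by omega⟩
        rw [coeff_X_mul]
        rcases Nat.lt_or_ge d e' with h3 | h3
        · rw [Polynomial.coeff_eq_zero_of_degree_lt (lt_of_lt_of_le h (by exact_mod_cast h3)),
            Polynomial.coeff_eq_zero_of_natDegree_lt (p := f) (n := e' + 1) (by omega)]
          simp
        · have h4 : e' = d := by omega
          subst h4
          have h5 : f.coeff (e' + 1) = 1 := by
            rw [← hd]
            exact hf.coeff_natDegree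
          rw [h5]
          simp
      have h3 := ih (by omega) q' h1 h2
      have h4 : d - j = (d - (j + 1)) + 1 := by omega
      rw [hq', coeff_sub, coeff_C_mul, h4, coeff_X_mul] at h3
      have h5 : q.coeff d * f.coeff (d - (j + 1) + 1) ∈ L := by
        rw [mul_comm]
        exact L.smul_mem _ ((hmem _).2 ⟨q, hq, h, rfl⟩)
      have h6 := L.add_mem h3 h5
      rwa [sub_add_cancel] at h6
  have hkd : k ≤ d := by
    by_contra hc
    have : g.coeff k = 0 := Polynomial.coeff_eq_zero_of_degree_lt
      (lt_of_lt_of_le hg (by exact_mod_cast (by omega : d + 1 ≤ k)))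
    rw [this] at hk
    exact hk.ne_zero rfl
  have hu : g.coeff k ∈ L := by
    have := key (d - k) (by omega) g hgI hg
    rwa [show d - (d - k) = k by omega] at this
  have h1 : (1 : R) ∈ L := by
    obtain ⟨u, hu'⟩ := hk
    have := L.smul_mem (↑u⁻¹ : R) hu
    rw [← hu'] at this
    simpa using this
  obtain ⟨h, h2, h3, h4⟩ := (hmem 1).1 h1
  have h5 : h.degree ≤ (d : ℕ) := Order.lt_succ_iff.1 (by exact_mod_cast h3)
  exact ⟨h, h2, h4, h5⟩

variable [IsLocalRing R]

/-- if `f` is monic of positive degree, one of the other components has a unit coefficient -/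
theorem exists_unit_coeff {n : ℕ} (f : Fin n → R[X]) (hf : Unim f) (i : Fin n)
    (hi : (f i).Monic) (hd : 0 < (f i).natDegree) : ∃ j ≠ i, ∃ k, IsUnit ((f j).coeff k) := by
  by_contra hc
  push Not at hc
  obtain ⟨u, hu⟩ := hf
  have h0 : ∀ j ≠ i, (f j).map (IsLocalRing.residue R) = 0 := by
    intro j hj
    ext k
    rw [coeff_map, coeff_zero]
    exact (IsLocalRing.residue_eq_zero_iff _).2 ((IsLocalRing.mem_maximalIdeal _).2 (hc j hj k))
  have h1 : (u i).map (IsLocalRing.residue R) * (f i).map (IsLocalRing.residue R) = 1 := by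
    have := congrArg (Polynomial.map (IsLocalRing.residue R)) hu
    rw [Polynomial.map_sum, Polynomial.map_one, Finset.sum_eq_single i] at this
    · rw [← this, Polynomial.map_mul]
    · intro j _ hj
      rw [Polynomial.map_mul, h0 j hj, mul_zero]
    · intro h
      exact absurd (Finset.mem_univ i) h
  have h2 : (f i).map (IsLocalRing.residue R) = 1 :=
    (hi.map _).eq_one_of_isUnit (IsUnit.of_mul_eq_one _ ((mul_comm _ _).trans h1))
  have h3 := hi.natDegree_map (IsLocalRing.residue R)
  rw [h2, natDegree_one] at h3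
  omega

theorem main {m : ℕ} : ∀ (d : ℕ) (f : Fin (m + 3) → R[X]), Unim f →
    (∃ i, (f i).Monic ∧ (f i).natDegree ≤ d) → Eqv f (Pi.single 0 1) := by
  intro d
  induction d with
  | zero =>
    rintro f hf ⟨i, h1, h2⟩
    exact eqv_one f i (Polynomial.eq_one_of_monic_natDegree_zero h1 (by omega))
  | succ d ih =>
    rintro f hf ⟨i, h1, h2⟩
    by_cases hle : (f i).natDegree ≤ d
    · exact ih f hf ⟨i, h1, hle⟩
    have hdeg : (f i).natDegree = d + 1 := by omega
    -- reduce the other components
    set w : Fin (m + 3) → R[X] := fun k => if k = i then 0 else - (f k /ₘ f i) with hw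
    have e1 := eqv_col f i w (by simp [hw])
    set g : Fin (m + 3) → R[X] := fun k => f k + w k * f i with hg
    have hgi : g i = f i := by simp [hg, hw]
    have hgk : ∀ k ≠ i, (g k).degree < (d + 1 : ℕ) := by
      intro k hk
      have h3 : g k = f k %ₘ f i := by
        have := Polynomial.modByMonic_add_div (f k) (f i)
        simp only [hg, hw, if_neg hk]
        linear_combination - this
      rw [h3]
      refine (Polynomial.degree_modByMonic_lt _ h1).trans_le ?_
      rw [Polynomial.degree_eq_natDegree h1.ne_zero, hdeg]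
    have hgU : Unim g := hf.of_eqv e1
    obtain ⟨j, hji, k, hk⟩ := exists_unit_coeff g hgU i (by rw [hgi]; exact h1)
      (by rw [hgi, hdeg]; omega)
    obtain ⟨l, hli, hlj⟩ : ∃ l : Fin (m + 3), l ≠ i ∧ l ≠ j := by
      have : ({i, j} : Finset (Fin (m + 3))).card < Fintype.card (Fin (m + 3)) := by
        rw [Fintype.card_fin]
        exact lt_of_le_of_lt Finset.card_le_two (by omega)
      obtain ⟨l, hl⟩ := Finset.exists_mem_notMem_of_card_lt_card
        (s := ({i, j} : Finset (Fin (m + 3)))) (t := Finset.univ) (by simpa using this)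
      simp only [Finset.mem_insert, Finset.mem_singleton, not_or] at hl
      exact ⟨l, hl.2.1, hl.2.2⟩
    obtain ⟨h, hI, hm, hhd⟩ := exists_monic (Ideal.span {f i, g j}) (f := f i) (g := g j) h1 hdeg
      (Ideal.subset_span (by simp)) (Ideal.subset_span (by simp)) (hgk j hji) hk
    obtain ⟨a, b, hab⟩ := Ideal.mem_span_pair.1 hI
    set c : R := 1 - (g l).coeff d with hc
    -- the new component
    have e2 := eqv_row g l (fun k => if k = i then C c * a else if k = j then C c * b else 0)
      (by simp [hli, hlj])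
    have hsum : ∑ k, (fun k => if k = i then C c * a else if k = j then C c * b else 0) k * g k =
        C c * h := by
      rw [Finset.sum_eq_add_of_mem i j (Finset.mem_univ i) (Finset.mem_univ j) hji.symm]
      · simp only [if_true, if_neg hji, hgi]
        rw [← hab]
        ring
      · intro k _ hk
        simp [hk.1, hk.2]
    rw [hsum] at e2
    have h5 : (g l + C c * h).degree ≤ (d : ℕ) := by
      refine (Polynomial.degree_add_le _ _).trans (max_le ?_ ?_)
      · exact Order.lt_succ_iff.1 (by exact_mod_cast hgk l hli)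
      · rw [← Polynomial.smul_eq_C_mul]
        exact (Polynomial.degree_smul_le _ _).trans hhd
    have h6 : (g l + C c * h).coeff d = 1 := by
      rw [coeff_add, coeff_C_mul, hm, hc]
      ring
    refine e1.trans (e2.trans (ih _ (hgU.of_eqv e2) ⟨l, ?_, ?_⟩))
    · rw [Function.update_self]
      exact Polynomial.monic_of_degree_le d h5 h6
    · rw [Function.update_self]
      exact Polynomial.natDegree_le_of_degree_le h5

end Local

end Horrocks

/-- [H] Horrocks.lean -/
theorem horrocks {R : Type} [CommRing R] [IsLocalRing R] {m : ℕ} (f : Fin (m + 1) → R[X])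
    (hf : Unim f) (hm : ∃ i, (f i).Monic) : Eqv f (Pi.single 0 1) := by
  match m with
  | 0 =>
    obtain ⟨i, hi⟩ := hm
    obtain ⟨u, hu⟩ := hf
    rw [Fin.sum_univ_one] at hu
    have h0 : i = 0 := Fin.fin_one_eq_zero i
    subst h0
    exact Horrocks.eqv_one f 0 (hi.eq_one_of_isUnit
      (IsUnit.of_mul_eq_one _ ((mul_comm _ _).trans hu)))
  | 1 => exact Horrocks.eqv_two f hf
  | m + 2 =>
    obtain ⟨i, hi⟩ := hm
    exact Horrocks.main _ f hf ⟨i, hi, le_rfl⟩

end Vale.Agent.P295
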