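import Vale.Agent.P295.QDefs

/-!
# P295, row [P]: patching (the local step of the Quillen-Suslin theorem)
-/

namespace Vale.Agent.P295

open Polynomial

namespace Patch

variable {R S : Type} [CommRing R] [CommRing S]

/-- `x ↦ x + c y` -/
noncomputable def sh (c : R) : R[X] →+* R[X][X] :=
  Polynomial.eval₂RingHom (C.comp C) (C X + C (C c) * X)

theorem sh_apply (c : R) (f : R[X]) : sh c f = shiftC c f := rfl

/-- `y ↦ c y` -/
noncomputable def sc (c : R) : R[X][X] →+* R[X][X] :=
  Polynomial.eval₂RingHom C (C (C c) * X)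

theorem sc_C (c : R) (f : R[X]) : sc c (C f) = C f := by
  simp [sc]

theorem sc_sh (c : R) (f : R[X]) : sc c (sh 1 f) = sh c f := by
  have h : (sc c).comp (sh 1) = sh c := by
    apply Polynomial.ringHom_ext
    · intro a
      simp [sc, sh]
    · simp [sc, sh]
  exact RingHom.congr_fun h f

/-- change of the coefficients -/
noncomputable def mm (φ : R →+* S) : R[X][X] →+* S[X][X] :=
  Polynomial.mapRingHom (Polynomial.mapRingHom φ)

theorem mm_C (φ : R →+* S) (f : R[X]) : mm φ (C f) = C (f.map φ) := by
  simp [mm]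

theorem mm_sh (φ : R →+* S) (c : R) (f : R[X]) : mm φ (sh c f) = sh (φ c) (f.map φ) := by
  have h : (mm φ).comp (sh c) = (sh (φ c)).comp (Polynomial.mapRingHom φ) := by
    apply Polynomial.ringHom_ext
    · intro a
      simp [mm, sh]
    · simp [mm, sh]
  exact RingHom.congr_fun h f

theorem mm_injective {φ : R →+* S} (h : Function.Injective φ) : Function.Injective (mm φ) := by
  have h1 : Function.Injective (Polynomial.mapRingHom φ) := Polynomial.map_injective φ h
  exact Polynomial.map_injective _ h1

theorem eval_sh (f : R[X]) : Polynomial.evalRingHom (0 : R[X]) (sh 1 f) = f := by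
  have h : (Polynomial.evalRingHom (0 : R[X])).comp (sh 1) = RingHom.id _ := by
    apply Polynomial.ringHom_ext
    · intro a
      simp [sh]
    · simp [sh]
  exact RingHom.congr_fun h f

theorem eval_C' (f : R[X]) : Polynomial.evalRingHom (0 : R[X]) (C f) = f := by
  simp

theorem pow_aux (s : S) (j : ℕ) :
    (C (C s) * X : S[X][X]) ^ j = C (C (s ^ j)) * X ^ j := by
  rw [mul_pow, ← C_pow, ← C_pow]

section Loc

variable {R : Type} [CommRing R] (p : Ideal R) [p.IsPrime]

theorem exists_denom (a : (Localization.AtPrime p)[X]) :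
    ∃ b : R, b ∉ p ∧ ∃ q : R[X],
      Polynomial.mapRingHom (algebraMap R (Localization.AtPrime p)) q =
        C (algebraMap R (Localization.AtPrime p) b) * a := by
  obtain ⟨b, hb, hb2⟩ := IsLocalization.integerNormalization_spec p.primeCompl a
  refine ⟨b, hb, IsLocalization.integerNormalization p.primeCompl a, ?_⟩
  rw [Polynomial.coe_mapRingHom, hb2]
  ext i
  rw [Polynomial.coeff_smul, Polynomial.coeff_C_mul, Algebra.smul_def]

theorem exists_good (Q : (Localization.AtPrime p)[X][X])
    (h0 : Q.coeff 0 ∈ (Polynomial.mapRingHom (algebraMap R (Localization.AtPrime p))).range) :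
    ∃ b : R, b ∉ p ∧ ∀ r : R, sc (algebraMap R (Localization.AtPrime p) (b * r)) Q ∈
      (mm (algebraMap R (Localization.AtPrime p))).range := by
  choose d hd q hq using exists_denom p
  refine ⟨∏ k ∈ Finset.range (Q.natDegree + 1), d (Q.coeff k), ?_, ?_⟩
  · have := prod_mem (S := p.primeCompl) (t := Finset.range (Q.natDegree + 1))
      (f := fun k => d (Q.coeff k)) (fun k _ => hd (Q.coeff k))
    exact this
  · intro r
    change Polynomial.eval₂ C (C (C _) * X) Q ∈ _
    rw [Polynomial.eval₂_eq_sum_range]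
    apply sum_mem
    intro k hk
    rcases Nat.eq_zero_or_pos k with rfl | hk0
    · rw [pow_zero, mul_one]
      obtain ⟨q0, hq0⟩ := h0
      exact ⟨C q0, by rw [mm_C, ← hq0]; rfl⟩
    · obtain ⟨e, he⟩ := Finset.dvd_prod_of_mem (fun k => d (Q.coeff k)) hk
      obtain ⟨j, rfl⟩ : ∃ j, k = j + 1 := ⟨k - 1, by omega⟩
      set B := ∏ k ∈ Finset.range (Q.natDegree + 1), d (Q.coeff k) with hB
      refine ⟨C (q (Q.coeff (j + 1)) * C (e * r * (B * r) ^ j)) * X ^ (j + 1), ?_⟩
      rw [map_mul, mm_C, Polynomial.map_mul, ← Polynomial.coe_mapRingHom, hq]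
      set φ0 := algebraMap R (Localization.AtPrime p) with hφ0
      have h1 : (C (C (φ0 (B * r))) *
          (X : (Localization.AtPrime p)[X][X])) ^ (j + 1) =
          C (C (φ0 (d (Q.coeff (j + 1)) * (e * r * (B * r) ^ j))))
            * X ^ (j + 1) := by
        have h2 : d (Q.coeff (j + 1)) * (e * r * (B * r) ^ j) = (B * r) ^ (j + 1) := by
          rw [pow_succ, he]; ring
        rw [h2, map_pow φ0]
        exact pow_aux _ _
      rw [h1]
      simp only [mm, Polynomial.coe_mapRingHom, Polynomial.map_pow, Polynomial.map_X,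
        Polynomial.map_C, map_mul]
      ring

end Loc

theorem main_patch {R : Type} [CommRing R] [IsDomain R] {n : ℕ} (f : Fin n → R[X]) (p : Ideal R)
    [p.IsPrime]
    (h : Eqv (fun i => (f i).map (algebraMap R (Localization.AtPrime p)))
      (fun i => C (algebraMap R (Localization.AtPrime p) ((f i).eval 0)))) :
    ∃ c : R, c ∉ p ∧ Eqv (fun i => shiftC c (f i)) (fun i => C (f i)) := by
  obtain ⟨M, N, hMN, hNM, hMf⟩ := h
  set φ := algebraMap R (Localization.AtPrime p) with hφ
  have hinj : Function.Injective φ :=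
    IsLocalization.injective _ p.primeCompl_le_nonZeroDivisors
  -- the two matrices over `S[X][X]`
  set G : Matrix (Fin n) (Fin n) (Localization.AtPrime p)[X][X] :=
    (N.map (C : _ →+* _)) * (M.map (sh 1)) with hG
  set G' : Matrix (Fin n) (Fin n) (Localization.AtPrime p)[X][X] :=
    (N.map (sh 1)) * (M.map (C : _ →+* _)) with hG'
  have hMNC : M.map (C : _ →+* (Localization.AtPrime p)[X][X]) * N.map (C : _ →+* _) = 1 := by
    rw [← Matrix.map_mul, hMN, Matrix.map_one _ (map_zero _) (map_one _)]
  have hNMC : N.map (C : _ →+* (Localization.AtPrime p)[X][X]) * M.map (C : _ →+* _) = 1 := by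
    rw [← Matrix.map_mul, hNM, Matrix.map_one _ (map_zero _) (map_one _)]
  have hMNs : M.map (sh 1) * N.map (sh 1) = 1 := by
    rw [← Matrix.map_mul, hMN, Matrix.map_one _ (map_zero _) (map_one _)]
  have hNMs : N.map (sh 1) * M.map (sh 1) = 1 := by
    rw [← Matrix.map_mul, hNM, Matrix.map_one _ (map_zero _) (map_one _)]
  have hGG' : G * G' = 1 := by
    rw [hG, hG', Matrix.mul_assoc, ← Matrix.mul_assoc (M.map (sh 1)), hMNs, Matrix.one_mul, hNMC]
  have hG'G : G' * G = 1 := by
    rw [hG, hG', Matrix.mul_assoc, ← Matrix.mul_assoc (M.map (C : _ →+* _)), hMNC,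
      Matrix.one_mul, hNMs]
  -- evaluation at `y = 0`
  have hG0 : G.map (Polynomial.evalRingHom (0 : (Localization.AtPrime p)[X])) = 1 := by
    rw [hG, Matrix.map_mul, Matrix.map_map, Matrix.map_map]
    have e1 : (Polynomial.evalRingHom (0 : (Localization.AtPrime p)[X])) ∘ (C : _ →+* _) = id := by
      funext x; exact eval_C' x
    have e2 : (Polynomial.evalRingHom (0 : (Localization.AtPrime p)[X])) ∘ (sh 1) = id := by
      funext x; exact eval_sh x
    rw [e1, e2, Matrix.map_id, Matrix.map_id, hNM]
  have hG'0 : G'.map (Polynomial.evalRingHom (0 : (Localization.AtPrime p)[X])) = 1 := by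
    rw [hG', Matrix.map_mul, Matrix.map_map, Matrix.map_map]
    have e1 : (Polynomial.evalRingHom (0 : (Localization.AtPrime p)[X])) ∘ (C : _ →+* _) = id := by
      funext x; exact eval_C' x
    have e2 : (Polynomial.evalRingHom (0 : (Localization.AtPrime p)[X])) ∘ (sh 1) = id := by
      funext x; exact eval_sh x
    rw [e1, e2, Matrix.map_id, Matrix.map_id, hNM]
  have hgood : ∀ (H : Matrix (Fin n) (Fin n) (Localization.AtPrime p)[X][X]),
      H.map (Polynomial.evalRingHom (0 : (Localization.AtPrime p)[X])) = 1 → ∀ i j,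
      ∃ b : R, b ∉ p ∧ ∀ r : R, sc (φ (b * r)) (H i j) ∈ (mm φ).range := by
    intro H hH i j
    apply exists_good p
    have h1 : (H i j).coeff 0 = (1 : Matrix (Fin n) (Fin n) (Localization.AtPrime p)[X]) i j := by
      rw [← hH, Matrix.map_apply, Polynomial.coe_evalRingHom, Polynomial.coeff_zero_eq_eval_zero]
    rw [h1]
    by_cases hij : i = j
    · subst hij
      rw [Matrix.one_apply_eq]
      exact one_mem _
    · rw [Matrix.one_apply_ne hij]
      exact zero_mem _
  choose b hb hb2 using hgood G hG0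
  choose b' hb' hb2' using hgood G' hG'0
  set c : R := (∏ i, ∏ j, b i j) * (∏ i, ∏ j, b' i j) with hc
  have hcp : c ∉ p := by
    have m1 : (∏ i, ∏ j, b i j) ∈ p.primeCompl :=
      prod_mem fun i _ => prod_mem fun j _ => hb i j
    have m2 : (∏ i, ∏ j, b' i j) ∈ p.primeCompl :=
      prod_mem fun i _ => prod_mem fun j _ => hb' i j
    exact mul_mem m1 m2
  have hd : ∀ i j, ∃ r, c = b i j * r := by
    intro i j
    have : b i j ∣ c := by
      refine Dvd.dvd.mul_right ?_ _
      exact (Finset.dvd_prod_of_mem (fun j => b i j) (Finset.mem_univ j)).trans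
        (Finset.dvd_prod_of_mem (fun i => ∏ j, b i j) (Finset.mem_univ i))
    exact this
  have hd' : ∀ i j, ∃ r, c = b' i j * r := by
    intro i j
    have : b' i j ∣ c := by
      refine Dvd.dvd.mul_left ?_ _
      exact (Finset.dvd_prod_of_mem (fun j => b' i j) (Finset.mem_univ j)).trans
        (Finset.dvd_prod_of_mem (fun i => ∏ j, b' i j) (Finset.mem_univ i))
    exact this
  have hA : ∀ i j, ∃ a : R[X][X], mm φ a = sc (φ c) (G i j) := by
    intro i j
    obtain ⟨r, hr⟩ := hd i j
    have := hb2 i j r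
    rw [← hr] at this
    exact this
  have hB : ∀ i j, ∃ a : R[X][X], mm φ a = sc (φ c) (G' i j) := by
    intro i j
    obtain ⟨r, hr⟩ := hd' i j
    have := hb2' i j r
    rw [← hr] at this
    exact this
  choose A hA2 using hA
  choose B hB2 using hB
  have hAm : (Matrix.of A).map (mm φ) = G.map (sc (φ c)) := by
    ext1 i j
    exact hA2 i j
  have hBm : (Matrix.of B).map (mm φ) = G'.map (sc (φ c)) := by
    ext1 i j
    exact hB2 i j
  have hmmi := mm_injective hinj
  have hmapinj : ∀ (U V : Matrix (Fin n) (Fin n) R[X][X]), U.map (mm φ) = V.map (mm φ) →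
      U = V := by
    intro U V hUV
    ext1 i j
    exact hmmi (congrFun (congrFun hUV i) j)
  refine ⟨c, hcp, Matrix.of A, Matrix.of B, ?_, ?_, ?_⟩
  · apply hmapinj
    rw [Matrix.map_mul, hAm, hBm, ← Matrix.map_mul, hGG',
      Matrix.map_one _ (map_zero _) (map_one _), Matrix.map_one _ (map_zero _) (map_one _)]
  · apply hmapinj
    rw [Matrix.map_mul, hAm, hBm, ← Matrix.map_mul, hG'G,
      Matrix.map_one _ (map_zero _) (map_one _), Matrix.map_one _ (map_zero _) (map_one _)]
  · -- the action on the vector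
    -- over `S[X][X]`, `G` maps `sh 1 f` to `C f`
    set F : Fin n → (Localization.AtPrime p)[X] := fun i => (f i).map φ with hF
    have hGF : G.mulVec (fun i => sh 1 (F i)) = fun i => C (F i) := by
      rw [hG, ← Matrix.mulVec_mulVec]
      have e1 : (M.map (sh 1)).mulVec (fun i => sh 1 (F i)) =
          fun i => C (C (φ ((f i).eval 0))) := by
        funext i
        have h1 := RingHom.map_mulVec (sh (1 : Localization.AtPrime p)) M F i
        rw [hMf] at h1
        rw [show (fun i => sh (1 : Localization.AtPrime p) (F i)) = ⇑(sh 1) ∘ F from rfl, ← h1]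
        simp [sh]
      have e2 : (M.map (C : _ →+* _)).mulVec (fun i => (C (F i) : (Localization.AtPrime p)[X][X])) =
          fun i => C (C (φ ((f i).eval 0))) := by
        funext i
        have h1 := RingHom.map_mulVec (C : (Localization.AtPrime p)[X] →+* _) M F i
        rw [hMf] at h1
        rw [show (fun i => (C (F i) : (Localization.AtPrime p)[X][X])) = ⇑C ∘ F from rfl, ← h1]
      rw [e1, ← e2, Matrix.mulVec_mulVec, hNMC, Matrix.one_mulVec]
    funext i
    apply hmmi
    have e2 := congrArg (sc (φ c)) (congrFun hGF i)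
    rw [RingHom.map_mulVec (sc (φ c)) G, ← hAm] at e2
    have e3 : (mm φ) ∘ (fun i => shiftC c (f i)) = (sc (φ c)) ∘ (fun i => sh 1 (F i)) := by
      funext k
      simp only [Function.comp_apply]
      rw [← sh_apply, mm_sh, sc_sh]
    rw [RingHom.map_mulVec (mm φ), mm_C, e3, e2, sc_C]

end Patch

theorem patch {R : Type} [CommRing R] [IsDomain R] {n : ℕ} (f : Fin n → R[X]) (p : Ideal R)
    [p.IsPrime]
    (h : Eqv (fun i => (f i).map (algebraMap R (Localization.AtPrime p)))
      (fun i => C (algebraMap R (Localization.AtPrime p) ((f i).eval 0)))) :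
    ∃ c : R, c ∉ p ∧ Eqv (fun i => shiftC c (f i)) (fun i => C (f i)) :=
  Patch.main_patch f p h

end Vale.Agent.P295
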