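import Mathlib

/-!
# P295: unimodular vectors and their equivalence
-/

namespace Vale.Agent.P295

open Polynomial

/-- Two vectors are equivalent when an invertible matrix maps one to the other. -/
def Eqv {R : Type} [CommRing R] {n : ℕ} (f g : Fin n → R) : Prop :=
  ∃ M N : Matrix (Fin n) (Fin n) R, M * N = 1 ∧ N * M = 1 ∧ M.mulVec f = g

/-- Unimodular vectors. -/
def Unim {R : Type} [CommRing R] {n : ℕ} (f : Fin n → R) : Prop := ∃ u : Fin n → R, ∑ i, u i * f i = 1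

theorem Eqv.refl {R : Type} [CommRing R] {n : ℕ} (f : Fin n → R) : Eqv f f :=
  ⟨1, 1, by simp, by simp, by simp⟩

theorem Eqv.symm {R : Type} [CommRing R] {n : ℕ} {f g : Fin n → R} (h : Eqv f g) : Eqv g f := by
  obtain ⟨M, N, h1, h2, h3⟩ := h
  exact ⟨N, M, h2, h1, by rw [← h3, Matrix.mulVec_mulVec, h2, Matrix.one_mulVec]⟩

theorem Eqv.trans {R : Type} [CommRing R] {n : ℕ} {f g h : Fin n → R} (h1 : Eqv f g)
    (h2 : Eqv g h) : Eqv f h := by
  obtain ⟨M, N, a1, a2, a3⟩ := h1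
  obtain ⟨M', N', b1, b2, b3⟩ := h2
  refine ⟨M' * M, N * N', ?_, ?_, ?_⟩
  · rw [Matrix.mul_assoc, ← Matrix.mul_assoc M, a1, Matrix.one_mul, b1]
  · rw [Matrix.mul_assoc, ← Matrix.mul_assoc N', b2, Matrix.one_mul, a2]
  · rw [← Matrix.mulVec_mulVec, a3, b3]

theorem Eqv.map {R S : Type} [CommRing R] [CommRing S] (φ : R →+* S) {n : ℕ} {f g : Fin n → R}
    (h : Eqv f g) : Eqv (fun i => φ (f i)) (fun i => φ (g i)) := by
  obtain ⟨M, N, h1, h2, h3⟩ := h
  refine ⟨M.map φ, N.map φ, ?_, ?_, ?_⟩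
  · rw [← Matrix.map_mul, h1, Matrix.map_one _ (map_zero φ) (map_one φ)]
  · rw [← Matrix.map_mul, h2, Matrix.map_one _ (map_zero φ) (map_one φ)]
  · funext i
    rw [← h3]
    simp [Matrix.mulVec, dotProduct]

theorem Unim.map {R S : Type} [CommRing R] [CommRing S] (φ : R →+* S) {n : ℕ} {f : Fin n → R}
    (h : Unim f) : Unim (fun i => φ (f i)) := by
  obtain ⟨u, hu⟩ := h
  refine ⟨fun i => φ (u i), ?_⟩
  rw [← map_one φ, ← hu, map_sum]
  simp

theorem Unim.of_eqv {R : Type} [CommRing R] {n : ℕ} {f g : Fin n → R} (h : Unim f)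
    (hfg : Eqv f g) : Unim g := by
  obtain ⟨u, hu⟩ := h
  obtain ⟨N, M, h1, h2, h3⟩ := hfg.symm
  refine ⟨Matrix.vecMul u N, ?_⟩
  change dotProduct (Matrix.vecMul u N) g = 1
  rw [← Matrix.dotProduct_mulVec, h3]
  exact hu

/-- `f (x + c y)` in `R[x][y]` -/
noncomputable def shiftC {R : Type} [CommRing R] (c : R) (f : R[X]) : R[X][X] :=
  Polynomial.eval₂ (C.comp C) (C X + C (C c) * X) f

end Vale.Agent.P295
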