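import Vale.Agent.P295.QDefs

/-!
# The theorem of Quillen and Suslin (from the monic case)

The first part (the automorphism `T` and the leading coefficient of `T f`) is the corresponding
part of Mathlib `RingTheory/NoetherNormalization` (Sihan Su, Wan Lin, Xiaoyang Su), where it is
private.
-/

namespace Vale.Agent.P295.QS

section equivT

open Polynomial MvPolynomial Ideal Nat RingHom List

variable {k : Type*} [Field k] {n : ℕ} (f : MvPolynomial (Fin (n + 1)) k)
variable (v w : Fin (n + 1) →₀ ℕ)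

variable {f v} in
lemma lt_up (vlt : ∀ i, v i < 2 + f.totalDegree) :
    ∀ l ∈ ofFn v, l < 2 + f.totalDegree := by
  grind

/-- We construct an algebra map `T1 f c` which maps `X_i` into `X_i + c • X_0 ^ r_i` (`r_i = (2 + deg f) ^ i`) when `i ≠ 0`
and `X_0` to `X_0`. -/
noncomputable abbrev T1 (c : k) :
    MvPolynomial (Fin (n + 1)) k →ₐ[k] MvPolynomial (Fin (n + 1)) k :=
  aeval fun i ↦ if i = 0 then X 0 else X i + c • X 0 ^ ((2 + f.totalDegree) ^ i.1)

lemma t1_comp_t1_neg (c : k) : (T1 f c).comp (T1 f (-c)) = AlgHom.id _ _ := by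
  rw [comp_aeval, ← MvPolynomial.aeval_X_left]
  ext i v
  cases i using Fin.cases <;> simp

/-- `T1 f 1` leads to an algebra equiv `T f`. -/
noncomputable abbrev T := AlgEquiv.ofAlgHom (T1 f 1) (T1 f (-1))
  (t1_comp_t1_neg f 1) (by simpa using t1_comp_t1_neg f (-1))

lemma sum_r_mul_ne (vlt : ∀ i, v i < 2 + f.totalDegree)
    (wlt : ∀ i, w i < 2 + f.totalDegree) (ne : v ≠ w) :
    ∑ x : Fin (n + 1), (2 + f.totalDegree) ^ x.1 * v x ≠
      ∑ x : Fin (n + 1), (2 + f.totalDegree) ^ x.1 * w x := by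
  intro h
  refine ne <| Finsupp.ext <| congrFun <| ofFn_inj.mp ?_
  apply ofDigits_inj_of_len_eq (Nat.lt_add_right f.totalDegree one_lt_two)
    (by simp) (lt_up vlt) (lt_up wlt)
  simpa only [ofDigits_eq_sum_mapIdx, mapIdx_eq_ofFn, get_ofFn, length_ofFn,
    Fin.val_cast, mul_comm, sum_ofFn] using! h

lemma degreeOf_zero_t {a : k} (ha : a ≠ 0) : ((T f) (monomial v a)).degreeOf 0 =
    ∑ i : Fin (n + 1), (2 + f.totalDegree) ^ i.1 * v i := by
  rw [← natDegree_finSuccEquiv, monomial_eq, Finsupp.prod_pow v fun a ↦ X a]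
  simp only [Fin.prod_univ_succ, Fin.sum_univ_succ, map_mul, map_prod, map_pow,
    AlgEquiv.ofAlgHom_apply, MvPolynomial.aeval_C, MvPolynomial.aeval_X, if_pos, Fin.succ_ne_zero,
    ite_false, one_smul, map_add, finSuccEquiv_X_zero, finSuccEquiv_X_succ, algebraMap_eq]
  have h (i : Fin n) :
      (Polynomial.C (X (R := k) i) + Polynomial.X ^ ((2 + f.totalDegree) ^ i.succ.1)) ^ v i.succ ≠ 0 :=
    pow_ne_zero (v i.succ) (leadingCoeff_ne_zero.mp <| by simp [add_comm, leadingCoeff_X_pow_add_C])
  rw [natDegree_mul (by simp [ha]) (mul_ne_zero (by simp) (Finset.prod_ne_zero_iff.mpr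
    (fun i _ ↦ h i))), natDegree_mul (by simp) (Finset.prod_ne_zero_iff.mpr (fun i _ ↦ h i)),
    natDegree_prod _ _ (fun i _ ↦ h i), natDegree_finSuccEquiv, degreeOf_C]
  simpa only [natDegree_pow, zero_add, natDegree_X, mul_one, Fin.val_zero, pow_zero, one_mul,
    add_right_inj] using Finset.sum_congr rfl (fun i _ ↦ by
    rw [add_comm (Polynomial.C _), natDegree_X_pow_add_C, mul_comm])

/-- `T` maps different monomials of `f` to polynomials with different degrees in `X_0`. -/
lemma degreeOf_t_ne_of_ne (hv : v ∈ f.support) (hw : w ∈ f.support) (ne : v ≠ w) :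
    (T f <| monomial v <| coeff v f).degreeOf 0 ≠
    (T f <| monomial w <| coeff w f).degreeOf 0 := by
  rw [degreeOf_zero_t _ _ <| mem_support_iff.mp hv, degreeOf_zero_t _ _ <| mem_support_iff.mp hw]
  refine sum_r_mul_ne f v w (fun i ↦ ?_) (fun i ↦ ?_) ne <;>
  exact lt_of_le_of_lt ((monomial_le_degreeOf i ‹_›).trans (degreeOf_le_totalDegree f i))
    (by lia)

lemma leadingCoeff_finSuccEquiv_t :
    (finSuccEquiv k n ((T f) ((monomial v) (coeff v f)))).leadingCoeff =
    algebraMap k _ (coeff v f) := by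
  rw [monomial_eq, Finsupp.prod_fintype]
  · simp only [map_mul, map_prod, leadingCoeff_mul, leadingCoeff_prod]
    rw [AlgEquiv.ofAlgHom_apply, algHom_C, algebraMap_eq, finSuccEquiv_apply,
      eval₂Hom_C, coe_comp]
    simp only [AlgEquiv.ofAlgHom_apply, Function.comp_apply, leadingCoeff_C, map_pow,
      leadingCoeff_pow, algebraMap_eq]
    have : ∀ j, ((finSuccEquiv k n) ((T1 f) 1 (X j))).leadingCoeff = 1 := fun j ↦ by
      by_cases h : j = 0
      · simp [h, finSuccEquiv_apply]
      · simp only [aeval_eq_bind₁, bind₁_X_right, if_neg h, one_smul, map_add, map_pow]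
        obtain ⟨i, rfl⟩ := Fin.exists_succ_eq.mpr h
        simp [finSuccEquiv_X_succ, finSuccEquiv_X_zero, add_comm]
    simp only [this, one_pow, Finset.prod_const_one, mul_one]
  exact fun i ↦ pow_zero _

/-- `T` maps `f` into some polynomial in `X_0` such that the leading coefficient is invertible. -/
lemma T_leadingcoeff_isUnit (fne : f ≠ 0) :
    IsUnit (finSuccEquiv k n (T f f)).leadingCoeff := by
  obtain ⟨v, vin, vs⟩ := Finset.exists_max_image f.support
    (fun v ↦ (T f ((monomial v) (coeff v f))).degreeOf 0) (support_nonempty.mpr fne)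
  set h := fun w ↦ (MvPolynomial.monomial w) (coeff w f)
  simp only [← natDegree_finSuccEquiv] at vs
  replace vs : ∀ x ∈ f.support \ {v}, (finSuccEquiv k n ((T f) (h x))).degree <
      (finSuccEquiv k n ((T f) (h v))).degree := by
    intro x hx
    obtain ⟨h1, h2⟩ := Finset.mem_sdiff.mp hx
    apply degree_lt_degree <| lt_of_le_of_ne (vs x h1) ?_
    simpa only [natDegree_finSuccEquiv]
      using degreeOf_t_ne_of_ne f _ _ h1 vin <| ne_of_not_mem_cons h2
  have coeff : (finSuccEquiv k n ((T f) (h v + ∑ x ∈ f.support \ {v}, h x))).leadingCoeff =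
      (finSuccEquiv k n ((T f) (h v))).leadingCoeff := by
    simp only [map_add, map_sum]
    rw [add_comm]
    apply leadingCoeff_add_of_degree_lt <| (lt_of_le_of_lt <| degree_sum_le _ _) ?_
    have h2 : h v ≠ 0 := by simpa [h] using mem_support_iff.mp vin
    replace h2 : (finSuccEquiv k n ((T f) (h v))) ≠ 0 := fun eq ↦ h2 <|
      by simpa only [map_eq_zero_iff _ (AlgEquiv.injective _)] using eq
    exact (Finset.sup_lt_iff <| Ne.bot_lt (fun x ↦ h2 <| degree_eq_bot.mp x)).mpr vs
  nth_rw 2 [← f.support_sum_monomial_coeff]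
  rw [Finset.sum_eq_add_sum_sdiff_singleton_of_mem vin h]
  rw [leadingCoeff_finSuccEquiv_t] at coeff
  simpa only [coeff, algebraMap_eq] using (mem_support_iff.mp vin).isUnit.map MvPolynomial.C

theorem exists_equiv_isUnit (fne : f ≠ 0) :
    ∃ Φ : MvPolynomial (Fin (n + 1)) k ≃ₐ[k] (MvPolynomial (Fin n) k)[X],
      IsUnit (Φ f).leadingCoeff := by
  refine ⟨(T f).trans (finSuccEquiv k n), ?_⟩
  rw [AlgEquiv.trans_apply]
  exact T_leadingcoeff_isUnit f fne

end equivT

open Polynomial

/-- A permutation of the components. -/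
theorem eqv_perm {R : Type} [CommRing R] {n : ℕ} (σ : Equiv.Perm (Fin n)) (f : Fin n → R) :
    Eqv f (f ∘ σ) := by
  refine ⟨σ.permMatrix R, (σ⁻¹).permMatrix R, ?_, ?_, ?_⟩
  · rw [← Matrix.permMatrix_mul]; simp
  · rw [← Matrix.permMatrix_mul]; simp
  · exact Matrix.permMatrix_mulVec ..

theorem eqv_single {R : Type} [CommRing R] {m : ℕ} (i : Fin (m + 1)) :
    Eqv (Pi.single i 1 : Fin (m + 1) → R) (Pi.single 0 1) := by
  have h := eqv_perm (Equiv.swap i 0) (Pi.single i 1 : Fin (m + 1) → R)
  convert h using 1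
  funext j
  simp only [Function.comp, Pi.single_apply]
  by_cases hj : j = 0
  · subst hj; simp
  · by_cases hi : j = i
    · subst hi
      simp [hj, Ne.symm hj]
    · rw [Equiv.swap_apply_of_ne_of_ne hi hj]
      simp [hj, hi]

/-- A vector with a unit component. -/
theorem eqv_of_isUnit {R : Type} [CommRing R] {m : ℕ} (f : Fin (m + 1) → R) (i : Fin (m + 1))
    (h : IsUnit (f i)) : Eqv f (Pi.single 0 1) := by
  refine Eqv.trans (Eqv.symm ?_) (eqv_single i)
  have hdet : ((1 : Matrix (Fin (m + 1)) (Fin (m + 1)) R).updateCol i f).det = f i := by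
    rw [← Matrix.cramer_apply, Matrix.cramer_one]
    rfl
  refine ⟨(1 : Matrix (Fin (m + 1)) (Fin (m + 1)) R).updateCol i f,
    ((1 : Matrix (Fin (m + 1)) (Fin (m + 1)) R).updateCol i f)⁻¹,
    Matrix.mul_nonsing_inv _ (by rw [hdet]; exact h),
    Matrix.nonsing_inv_mul _ (by rw [hdet]; exact h), ?_⟩
  funext j
  simp [Matrix.mulVec_single]

/-- Multiplication of one component by a unit. -/
theorem eqv_update {R : Type} [CommRing R] {n : ℕ} (f : Fin n → R) (i : Fin n) (u : Rˣ) :
    Eqv f (Function.update f i (u * f i)) := by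
  refine ⟨Matrix.diagonal (Function.update 1 i (u : R)),
    Matrix.diagonal (Function.update 1 i ((u⁻¹ : Rˣ) : R)), ?_, ?_, ?_⟩
  · rw [Matrix.diagonal_mul_diagonal, ← Matrix.diagonal_one]
    congr 1
    funext j
    by_cases hj : j = i
    · subst hj; simp
    · simp [Function.update_of_ne hj]
  · rw [Matrix.diagonal_mul_diagonal, ← Matrix.diagonal_one]
    congr 1
    funext j
    by_cases hj : j = i
    · subst hj; simp
    · simp [Function.update_of_ne hj]
  · funext j
    rw [Matrix.mulVec_diagonal]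
    by_cases hj : j = i
    · subst hj; simp
    · simp [Function.update_of_ne hj]

/-- The theorem of Quillen and Suslin, from the monic case. -/
theorem quillen_suslin_of
    (J : ∀ {R : Type} [CommRing R] [IsDomain R] {m : ℕ} (f : Fin (m + 1) → R[X]),
      Unim f → (∃ i, (f i).Monic) → Eqv f (fun i => C ((f i).eval 0)))
    {k : Type} [Field k] {r m : ℕ} (f : Fin (m + 1) → MvPolynomial (Fin r) k)
    (hf : Unim f) : Eqv f (Pi.single 0 1) := by
  induction r with
  | zero =>
    obtain ⟨i, hi⟩ : ∃ i, f i ≠ 0 := by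
      by_contra h
      push Not at h
      obtain ⟨u, hu⟩ := hf
      simp [h] at hu
    refine eqv_of_isUnit f i ?_
    have e := MvPolynomial.eq_C_of_isEmpty (f i)
    rw [e]
    refine IsUnit.map MvPolynomial.C (isUnit_iff_ne_zero.2 ?_)
    intro h0
    rw [h0, map_zero] at e
    exact hi e
  | succ r ih =>
    obtain ⟨i, hi⟩ : ∃ i, f i ≠ 0 := by
      by_contra h
      push Not at h
      obtain ⟨u, hu⟩ := hf
      simp [h] at hu
    obtain ⟨Φ, hu⟩ := exists_equiv_isUnit (f i) hi
    have h1 : Unim (fun j => Φ (f j)) :=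
      hf.map (Φ : MvPolynomial (Fin (r + 1)) k →+* (MvPolynomial (Fin r) k)[X])
    obtain ⟨v, hv⟩ : ∃ v : (MvPolynomial (Fin r) k)[X]ˣ, ((v : (MvPolynomial (Fin r) k)[X]) *
        Φ (f i)).Monic := by
      have hCu : IsUnit (C ((hu.unit⁻¹ : (MvPolynomial (Fin r) k)ˣ) : MvPolynomial (Fin r) k)) :=
        IsUnit.map C (Units.isUnit _)
      refine ⟨hCu.unit, ?_⟩
      have := Polynomial.monic_of_isUnit_leadingCoeff_inv_smul hu
      rw [Units.smul_def, Polynomial.smul_eq_C_mul] at this
      rw [IsUnit.unit_spec]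
      exact this
    have h2 := eqv_update (fun j => Φ (f j)) i v
    have h3 := h1.of_eqv h2
    have h4 : (Function.update (fun j => Φ (f j)) i (v * Φ (f i)) i).Monic := by
      rw [Function.update_self]
      exact hv
    have h5 := J _ h3 ⟨i, h4⟩
    have h6 := h3.of_eqv h5
    have h7 := h6.map (Polynomial.evalRingHom 0)
    simp only [Polynomial.coe_evalRingHom, Polynomial.eval_C] at h7
    have h8 := (ih _ h7).map (C : MvPolynomial (Fin r) k →+* (MvPolynomial (Fin r) k)[X])
    have h9 := (h2.trans h5).trans h8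
    have h10 := h9.map (Φ.symm : (MvPolynomial (Fin r) k)[X] →+* MvPolynomial (Fin (r + 1)) k)
    have e1 : (fun j => (Φ.symm : (MvPolynomial (Fin r) k)[X] →+* MvPolynomial (Fin (r + 1)) k)
        (Φ (f j))) = f := by
      funext j; simp
    have e2 : (fun j => (Φ.symm : (MvPolynomial (Fin r) k)[X] →+* MvPolynomial (Fin (r + 1)) k)
        (C ((Pi.single 0 1 : Fin (m + 1) → MvPolynomial (Fin r) k) j))) = Pi.single 0 1 := by
      funext j
      by_cases hj : j = 0
      · subst hj; simp
      · simp [Pi.single_eq_of_ne hj]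
    rw [e1, e2] at h10
    exact h10

end Vale.Agent.P295.QS
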