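import Vale.Agent.P295.QDefs

/-!
# P295: quasi-homogeneous polynomials (weights zero allowed) with unimodular gradient
-/

namespace Vale.Agent.P295

open MvPolynomial

namespace Wt

set_option linter.unusedSectionVars false

variable {K : Type} [Field K] {σ : Type} [Fintype σ] [DecidableEq σ]

theorem lin_ext {V : Type} [AddCommGroup V] [Module K V]
    (F G : MvPolynomial σ K →ₗ[K] V) (f : MvPolynomial σ K)
    (h : ∀ v, coeff v f ≠ 0 → ∀ c, F (monomial v c) = G (monomial v c)) : F f = G f := by
  rw [f.as_sum, map_sum, map_sum]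
  exact Finset.sum_congr rfl (fun v hv => h v (by simpa using hv) _)

theorem weight_zero (w : σ → ℕ) (v : σ →₀ ℕ) (h : Finsupp.weight w v = 0) (i : σ)
    (hi : v i ≠ 0) : w i = 0 := by
  rw [Finsupp.weight_apply, Finsupp.sum] at h
  have := (Finset.sum_eq_zero_iff.mp h) i (by simpa using hi)
  simp only [smul_eq_mul, mul_eq_zero] at this
  tauto

theorem weight_split (w : σ → ℕ) (v : σ →₀ ℕ) (i : σ) (hi : v i ≠ 0) :
    Finsupp.weight w v = w i + Finsupp.weight w (v - Finsupp.single i 1) := by
  have h : v = Finsupp.single i 1 + (v - Finsupp.single i 1) := by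
    ext j
    by_cases hj : j = i
    · subst hj
      simp
      omega
    · simp [Finsupp.single_apply, Ne.symm hj]
  conv_lhs => rw [h]
  rw [map_add, Finsupp.weight_single]
  simp

variable (w : σ → ℕ) {r : ℕ} (E0 : {i // w i = 0} ≃ Fin r)

/-- set the variables of positive weight to zero -/
noncomputable def rho : MvPolynomial σ K →ₐ[K] MvPolynomial (Fin r) K :=
  aeval (fun i => if h : w i = 0 then X (E0 ⟨i, h⟩) else 0)

/-- the inclusion of the polynomials in the variables of weight zero -/
noncomputable def emb : MvPolynomial (Fin r) K →ₐ[K] MvPolynomial σ K :=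
  aeval (fun j => X (E0.symm j).1)

theorem emb_rho (p : MvPolynomial σ K) :
    emb w E0 (rho w E0 p) = aeval (fun i => if w i = 0 then X i else 0) p := by
  have : (emb (K := K) w E0).comp (rho w E0) =
      (aeval (fun i => if w i = 0 then (X i : MvPolynomial σ K) else 0)) := by
    apply MvPolynomial.algHom_ext
    intro i
    by_cases h : w i = 0
    · simp [emb, rho, h]
    · simp [emb, rho, h]
  exact DFunLike.congr_fun this p

theorem emb_rho_monomial (v : σ →₀ ℕ) (hv : ∀ i, v i ≠ 0 → w i = 0) (c : K) :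
    emb w E0 (rho w E0 (monomial v c)) = monomial v c := by
  rw [emb_rho, aeval_monomial, monomial_eq]
  congr 1
  apply Finset.prod_congr rfl
  intro i hi
  simp only
  rw [if_pos (hv i (by simpa using hi))]

theorem rho_monomial (v : σ →₀ ℕ) (i : σ) (hv : v i ≠ 0) (hi : w i ≠ 0) (c : K) :
    rho w E0 (monomial v c) = 0 := by
  rw [rho, aeval_monomial]
  have : (v.prod fun i k => (if h : w i = 0 then (X (E0 ⟨i, h⟩) : MvPolynomial (Fin r) K)
      else 0) ^ k) = 0 := by
    apply Finset.prod_eq_zero (i := i) (by simpa using hv)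
    simp [hi, hv]
  rw [this, mul_zero]

/-- set the variables of weight `d` to zero -/
noncomputable def tau (d : ℕ) : MvPolynomial σ K →ₐ[K] MvPolynomial σ K :=
  aeval (fun i => if w i = d then 0 else X i)

theorem rho_pderiv (d : ℕ) (f : MvPolynomial σ K) (hf : IsWeightedHomogeneous w f d) (i : σ)
    (hi : w i ≠ d) : rho w E0 (pderiv i f) = 0 := by
  have := lin_ext ((rho (K := K) w E0).toLinearMap ∘ₗ (pderiv i).toLinearMap) 0 f (by
    intro v hv c
    have h1 := hf hv
    simp only [LinearMap.comp_apply, LinearMap.zero_apply]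
    change rho w E0 (pderiv i (monomial v c)) = 0
    rw [pderiv_monomial]
    by_cases hvi : v i = 0
    · simp [hvi]
    · rw [weight_split w v i hvi] at h1
      by_contra hne
      have h2 : ∀ j, (v - Finsupp.single i 1 : σ →₀ ℕ) j ≠ 0 → w j = 0 := by
        intro j hj
        by_contra hwj
        exact hne (rho_monomial w E0 _ j hj hwj _)
      have h3 : Finsupp.weight w (v - Finsupp.single i 1) = 0 := by
        rw [Finsupp.weight_apply, Finsupp.sum]
        apply Finset.sum_eq_zero
        intro j hj
        rw [h2 j (by simpa using hj)]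
        simp
      omega)
  exact this

theorem decomp (d : ℕ) (hd : 0 < d) (f : MvPolynomial σ K) (hf : IsWeightedHomogeneous w f d)
    {m : ℕ} (Ed : {i // w i = d} ≃ Fin m) :
    f = tau w d f + ∑ k, emb w E0 (rho w E0 (pderiv (Ed.symm k).1 f)) * X (Ed.symm k).1 := by
  have := lin_ext (LinearMap.id) ((tau (K := K) w d).toLinearMap +
    ∑ k, (LinearMap.mulRight K (X (Ed.symm k).1 : MvPolynomial σ K)) ∘ₗ
      (emb (K := K) w E0).toLinearMap ∘ₗ (rho (K := K) w E0).toLinearMap ∘ₗ
        (pderiv (Ed.symm k).1).toLinearMap) f (by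
    intro v hv c
    have h1 := hf hv
    simp only [LinearMap.id_apply, LinearMap.add_apply, LinearMap.sum_apply, LinearMap.comp_apply,
      LinearMap.mulRight_apply]
    change monomial v c = tau w d (monomial v c) +
      ∑ k, emb w E0 (rho w E0 (pderiv (Ed.symm k).1 (monomial v c))) * X (Ed.symm k).1
    by_cases hex : ∃ i, w i = d ∧ v i ≠ 0
    · obtain ⟨i, hi, hvi⟩ := hex
      have h2 : Finsupp.weight w (v - Finsupp.single i 1) = 0 := by
        rw [weight_split w v i hvi] at h1
        omega
      have h3 : ∀ j, (v - Finsupp.single i 1 : σ →₀ ℕ) j ≠ 0 → w j = 0 :=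
        fun j hj => weight_zero w _ h2 j hj
      have hvi1 : v i = 1 := by
        by_contra hne
        have : w i = 0 := h3 i (by simp; omega)
        omega
      have h4 : tau w d (monomial v c) = 0 := by
        rw [tau, aeval_monomial]
        have : (v.prod fun i k => (if w i = d then (0 : MvPolynomial σ K) else X i) ^ k) = 0 := by
          apply Finset.prod_eq_zero (i := i) (by simpa using hvi)
          simp [hi, hvi]
        rw [this, mul_zero]
      rw [h4, zero_add, Finset.sum_eq_single (Ed ⟨i, hi⟩)]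
      · simp only [Equiv.symm_apply_apply]
        rw [pderiv_monomial, emb_rho_monomial w E0 _ h3, hvi1]
        rw [X, monomial_mul]
        have h5 : v - Finsupp.single i 1 + Finsupp.single i 1 = v := by
          ext j
          by_cases hj : j = i
          · subst hj
            simp
            omega
          · simp [Ne.symm hj]
        rw [h5]
        simp
      · intro k _ hk
        have hne : (Ed.symm k).1 ≠ i := by
          intro h
          apply hk
          rw [← Ed.apply_symm_apply k]
          congr 1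
          exact Subtype.ext h
        have hv0 : v (Ed.symm k).1 = 0 := by
          by_contra hne'
          have := h3 (Ed.symm k).1 (by simpa [Finsupp.single_apply, Ne.symm hne] using hne')
          have := (Ed.symm k).2
          omega
        rw [pderiv_monomial, hv0]
        simp
      · simp
    · push Not at hex
      have h4 : tau w d (monomial v c) = monomial v c := by
        rw [tau, aeval_monomial, monomial_eq]
        congr 1
        apply Finset.prod_congr rfl
        intro i hi
        simp only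
        rw [if_neg]
        intro h
        exact (by simpa using hi : v i ≠ 0) (hex i h)
      rw [h4, Finset.sum_eq_zero, add_zero]
      intro k _
      rw [pderiv_monomial, hex _ (Ed.symm k).2]
      simp)
  simp only [LinearMap.id_apply, LinearMap.add_apply, LinearMap.sum_apply, LinearMap.comp_apply,
      LinearMap.mulRight_apply] at this
  exact this

section lin

variable {w : σ → ℕ} {r : ℕ} (E0 : {i // w i = 0} ≃ Fin r) {d m : ℕ}
  (Ed : {i // w i = d} ≃ Fin (m + 1))

/-- linear substitution in the variables of weight `d` -/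
noncomputable def lin (M : Matrix (Fin (m + 1)) (Fin (m + 1)) (MvPolynomial (Fin r) K)) :
    MvPolynomial σ K →ₐ[K] MvPolynomial σ K :=
  aeval (fun i => if h : w i = d then ∑ l, emb w E0 (M l (Ed ⟨i, h⟩)) * X (Ed.symm l).1 else X i)

theorem lin_X (M : Matrix (Fin (m + 1)) (Fin (m + 1)) (MvPolynomial (Fin r) K)) (k : Fin (m + 1)) :
    lin E0 Ed M (X (Ed.symm k).1) = ∑ l, emb w E0 (M l k) * X (Ed.symm l).1 := by
  have h : w (Ed.symm k).1 = d := (Ed.symm k).2
  simp [lin, h]

theorem lin_X' (M : Matrix (Fin (m + 1)) (Fin (m + 1)) (MvPolynomial (Fin r) K)) (i : σ)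
    (h : w i ≠ d) : lin E0 Ed M (X i) = X i := by
  simp [lin, h]

theorem lin_emb (hd : 0 < d) (M : Matrix (Fin (m + 1)) (Fin (m + 1)) (MvPolynomial (Fin r) K))
    (p : MvPolynomial (Fin r) K) : lin E0 Ed M (emb w E0 p) = emb w E0 p := by
  have : (lin E0 Ed M).comp (emb w E0) = emb w E0 := by
    apply MvPolynomial.algHom_ext
    intro j
    have h : w (E0.symm j).1 ≠ d := by
      rw [(E0.symm j).2]
      omega
    simp [emb, lin_X' E0 Ed M _ h]
  exact DFunLike.congr_fun this p

theorem lin_tau (M : Matrix (Fin (m + 1)) (Fin (m + 1)) (MvPolynomial (Fin r) K))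
    (p : MvPolynomial σ K) : lin E0 Ed M (tau w d p) = tau w d p := by
  have : (lin E0 Ed M).comp (tau w d) = tau w d := by
    apply MvPolynomial.algHom_ext
    intro j
    by_cases h : w j = d
    · simp [tau, h]
    · simp [tau, h, lin_X' E0 Ed M _ h]
  exact DFunLike.congr_fun this p

theorem lin_comp (hd : 0 < d) (M N : Matrix (Fin (m + 1)) (Fin (m + 1)) (MvPolynomial (Fin r) K))
    (h : M * N = 1) : (lin E0 Ed M).comp (lin E0 Ed N) = AlgHom.id K _ := by
  apply MvPolynomial.algHom_ext
  intro i
  by_cases hi : w i = d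
  · obtain ⟨k, hk⟩ : ∃ k, i = (Ed.symm k).1 := ⟨Ed ⟨i, hi⟩, by simp⟩
    subst hk
    rw [AlgHom.comp_apply, lin_X, map_sum]
    simp only [map_mul, lin_emb E0 Ed hd, lin_X, Finset.mul_sum]
    rw [Finset.sum_comm]
    have : ∀ y, ∑ x, emb w E0 (N x k) * (emb w E0 (M y x) * X (Ed.symm y).1) =
        emb w E0 ((M * N) y k) * X (Ed.symm y).1 := by
      intro y
      rw [Matrix.mul_apply, map_sum, Finset.sum_mul]
      refine Finset.sum_congr rfl fun x _ => ?_
      rw [map_mul]
      ring
    simp only [this, h]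
    rw [Finset.sum_eq_single k]
    · simp
    · intro b _ hb
      rw [Matrix.one_apply_ne hb]
      simp
    · simp
  · simp [lin_X' E0 Ed _ _ hi]

/-- translation of one variable -/
noncomputable def tr (i0 : σ) (g : MvPolynomial σ K) : MvPolynomial σ K →ₐ[K] MvPolynomial σ K :=
  aeval (fun i => if i = i0 then X i0 + g else X i)

theorem tr_tau (i0 : σ) (h0 : w i0 = d) (g p : MvPolynomial σ K) :
    tr i0 g (tau w d p) = tau w d p := by
  have : (tr i0 g).comp (tau w d) = tau w d := by
    apply MvPolynomial.algHom_ext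
    intro j
    by_cases h : w j = d
    · simp [tau, h]
    · have : j ≠ i0 := by
        rintro rfl
        exact h h0
      simp [tau, h, tr, this]
  exact DFunLike.congr_fun this p

theorem tr_comp (i0 : σ) (h0 : w i0 = d) (p q : MvPolynomial σ K) (h : p + q = 0) :
    (tr i0 (tau w d p)).comp (tr i0 (tau w d q)) = AlgHom.id K _ := by
  apply MvPolynomial.algHom_ext
  intro i
  by_cases hi : i = i0
  · subst hi
    have h1 : tr i (tau w d q) (X i) = X i + tau w d q := by simp [tr]
    have h2 : tr i (tau w d p) (X i) = X i + tau w d p := by simp [tr]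
    rw [AlgHom.comp_apply, h1, map_add, h2, tr_tau i h0, add_assoc, ← map_add, h]
    simp
  · simp [tr, hi]

end lin

theorem main (hQ : ∀ {r m : ℕ} (f : Fin (m + 1) → MvPolynomial (Fin r) K), Unim f →
      Eqv f (Pi.single 0 1)) (w : σ → ℕ)
    (f : MvPolynomial σ K) (d : ℕ) (hd : 0 < d) (hw : IsWeightedHomogeneous w f d)
    (hf : ∃ u : σ → MvPolynomial σ K, ∑ i, u i * pderiv i f = 1) :
    ∃ (i : σ) (φ : MvPolynomial σ K ≃ₐ[K] MvPolynomial σ K), φ f = X i := by
  obtain ⟨u, hu⟩ := hf
  let E0 := Fintype.equivFin {i // w i = 0}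
  have hsum : ∑ i, rho w E0 (u i) * rho w E0 (pderiv i f) = 1 := by
    rw [← map_one (rho w E0), ← hu, map_sum]
    simp
  have hex : ∃ i, w i = d := by
    by_contra hne
    push Not at hne
    rw [Finset.sum_eq_zero] at hsum
    · exact zero_ne_one hsum
    · intro i _
      rw [rho_pderiv w E0 d f hw i (hne i), mul_zero]
  obtain ⟨m, hm⟩ : ∃ m, Fintype.card {i // w i = d} = m + 1 := by
    obtain ⟨i, hi⟩ := hex
    have : 0 < Fintype.card {i // w i = d} := Fintype.card_pos_iff.mpr ⟨⟨i, hi⟩⟩
    exact ⟨_, (Nat.succ_pred_eq_of_pos this).symm⟩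
  let Ed : {i // w i = d} ≃ Fin (m + 1) := Fintype.equivFinOfCardEq hm
  have hsum2 : ∑ k, rho w E0 (u (Ed.symm k).1) * rho w E0 (pderiv (Ed.symm k).1 f) = 1 := by
    rw [Equiv.sum_comp Ed.symm (fun i => rho w E0 (u i.1) * rho w E0 (pderiv i.1 f)), ← hsum]
    rw [← Finset.sum_subtype (Finset.univ.filter (fun i => w i = d)) (by simp)
      (fun i => rho w E0 (u i) * rho w E0 (pderiv i f))]
    apply Finset.sum_subset (Finset.subset_univ _)
    intro i _ hi
    rw [rho_pderiv w E0 d f hw i (by simpa using hi), mul_zero]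
  obtain ⟨M, N, h1, h2, h3⟩ := hQ (fun k => rho w E0 (pderiv (Ed.symm k).1 f))
    ⟨fun k => rho w E0 (u (Ed.symm k).1), hsum2⟩
  let φ : MvPolynomial σ K ≃ₐ[K] MvPolynomial σ K :=
    AlgEquiv.ofAlgHom (lin E0 Ed M) (lin E0 Ed N) (lin_comp E0 Ed hd M N h1)
      (lin_comp E0 Ed hd N M h2)
  have h0 : w (Ed.symm 0).1 = d := (Ed.symm 0).2
  let θ : MvPolynomial σ K ≃ₐ[K] MvPolynomial σ K :=
    AlgEquiv.ofAlgHom (tr (Ed.symm 0).1 (tau w d (-f))) (tr (Ed.symm 0).1 (tau w d f))
      (tr_comp _ h0 _ _ (by ring)) (tr_comp _ h0 _ _ (by ring))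
  refine ⟨(Ed.symm 0).1, φ.trans θ, ?_⟩
  have h4 : φ f = tau w d f + X (Ed.symm 0).1 := by
    change lin E0 Ed M f = _
    conv_lhs => rw [decomp w E0 d hd f hw Ed]
    rw [map_add, lin_tau, map_sum]
    congr 1
    simp only [map_mul, lin_emb E0 Ed hd, lin_X, Finset.mul_sum]
    rw [Finset.sum_comm]
    have h5 : ∀ y, ∑ x, emb w E0 (rho w E0 (pderiv (Ed.symm x).1 f)) *
        (emb w E0 (M y x) * X (Ed.symm y).1) =
        emb w E0 ((Pi.single 0 1 : Fin (m + 1) → MvPolynomial (Fin _) K) y) *
          X (Ed.symm y).1 := by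
      intro y
      rw [← h3, Matrix.mulVec, dotProduct, map_sum, Finset.sum_mul]
      refine Finset.sum_congr rfl fun x _ => ?_
      rw [map_mul]
      ring
    simp only [h5]
    rw [Finset.sum_eq_single 0]
    · simp
    · intro b _ hb
      simp [hb]
    · simp
  change θ (φ f) = _
  rw [h4, map_add]
  change tr (Ed.symm 0).1 (tau w d (-f)) (tau w d f) + tr (Ed.symm 0).1 (tau w d (-f))
    (X (Ed.symm 0).1) = _
  rw [tr_tau _ h0]
  simp [tr]

end Wt

end Vale.Agent.P295
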