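import Vale.Agent.P295.Horrocks
import Vale.Agent.P295.Patch
import Vale.Agent.P295.Glob
import Vale.Agent.P295.QSOf
import Vale.Agent.P295.Weighted

/-!
# P295: the theorem of Quillen and Suslin, and quasi-homogeneous polynomials
-/

namespace Vale.Agent.P295

open Polynomial

/-- Vaserstein: a unimodular vector over `R[x]` with a monic component is equivalent to its
value at `x = 0`. -/
theorem monic_eqv {R : Type} [CommRing R] [IsDomain R] {m : ℕ} (f : Fin (m + 1) → R[X])
    (hf : Unim f) (hm : ∃ i, (f i).Monic) : Eqv f (fun i => C ((f i).eval 0)) :=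
  Glob.glob (fun _ _ _ g h1 h2 => horrocks g h1 h2) (fun g p _ h => patch g p h) f hf hm

/-- The theorem of Quillen and Suslin: unimodular vectors over `k[x_1, …, x_r]`. -/
theorem quillen_suslin {k : Type} [Field k] {r m : ℕ} (f : Fin (m + 1) → MvPolynomial (Fin r) k)
    (hf : Unim f) : Eqv f (Pi.single 0 1) :=
  QS.quillen_suslin_of (fun f h1 h2 => monic_eqv f h1 h2) f hf

/-- A polynomial which is homogeneous of positive degree for some weights in `ℕ` (zero weights
allowed) and whose partial derivatives generate the unit ideal is a coordinate. -/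
theorem weighted' {K : Type} [Field K] {σ : Type} [Fintype σ] [DecidableEq σ]
    (f : MvPolynomial σ K) (hf : ∃ u : σ → MvPolynomial σ K, ∑ i, u i * MvPolynomial.pderiv i f = 1)
    (w : σ → ℕ) (d : ℕ) (hd : 0 < d) (hw : MvPolynomial.IsWeightedHomogeneous w f d) :
    ∃ (i : σ) (φ : MvPolynomial σ K ≃ₐ[K] MvPolynomial σ K), φ f = MvPolynomial.X i :=
  Wt.main (fun f h => quillen_suslin f h) w f d hd hw hf

end Vale.Agent.P295
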