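import Vale.Agent.P295.CDefs
import Vale.Agent.P295.Core

/-!
# P295, row [D2]: polynomials of degree at most two
-/

namespace Vale.Agent.P295

/-- A polynomial of degree at most two (any number of variables) with unimodular gradient is a
coordinate. -/
theorem Quad.main {σ : Type} [Fintype σ] (f : MvPolynomial σ ℂ)
    (hf : ∃ u : σ → MvPolynomial σ ℂ, ∑ i, u i * MvPolynomial.pderiv i f = 1)
    (h2 : f.totalDegree ≤ 2) : IsCoordinate f := by
  classical
  rcases good_of_affine h2 with ⟨x, hx⟩ | ⟨v, c, hc, h⟩
  · exfalso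
    obtain ⟨u, hu⟩ := hf
    have h1 := congrArg (MvPolynomial.eval x) hu
    rw [map_one, map_sum] at h1
    rw [Finset.sum_congr rfl (fun i _ => by rw [map_mul, hx i, mul_zero]),
      Finset.sum_const_zero] at h1
    exact zero_ne_one h1
  · exact isCoordinate_of_direction v hc h

/-- [D2] Quad.lean -/
theorem quadratic {n : ℕ} (f : MvPolynomial (Fin n) ℂ) (hf : IsStableCoordinate f)
    (h2 : f.totalDegree ≤ 2) : IsCoordinate f :=
  Quad.main f hf.unimodular h2

end Vale.Agent.P295
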